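import Vale.Agent.P207.N4.Dim
import Vale.Agent.P207.N4.H266.TauB
import Vale.Agent.P207.N3.H395.JCInv
import Vale.Agent.P207.H751.Pair

/-!
# P207, line N4: the tensor `N` in the affine charts

`AffIn L`: what the zoom data need from the affine charts of the leaves (row T1). The affine
coordinate is divided by ONE constant, so that the unit ball (even the ball of radius 2) of the
affine coordinate is covered by the chart `e x`.
-/

open Set Filter Topology Metric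
open scoped ContDiff

noncomputable section

namespace Vale.Agent.P207.N4.H751

open Vale.Agent.P207.N3 Vale.Agent.P207.N3.Ten Vale.Agent.P207.N4.Ten Vale.Agent.P207.H751

variable [Dim]

/-- the adjoint as a continuous linear map -/
def adjL : (E2 →L[ℝ] E2) →L[ℝ] (E2 →L[ℝ] E2) :=
  LinearMap.toContinuousLinearMap
    { toFun := fun A => ContinuousLinearMap.adjoint A
      map_add' := fun A C => map_add _ A C
      map_smul' := fun c A => by
        rw [map_smulₛₗ]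
        simp }

theorem adjL_apply (A : E2 →L[ℝ] E2) : adjL A = ContinuousLinearMap.adjoint A := rfl

variable {Γ X B : Type} [Group Γ] [MetricSpace X] [ProperSpace X] [MulAction Γ X]
  [IsIsometricSMul Γ X] [TopologicalSpace B] [CompactSpace B] [T2Space B] [MulAction Γ B]
  [ContinuousConstSMul Γ B]

/-- the affine charts -/
structure AffIn (L : Leaf Γ X B) where
  /-- the point of the leaf of `x` with affine coordinate `p` -/
  pt : X → E2 → B
  /-- the affine coordinate -/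
  ac : X → B → E2
  ac_pt : ∀ x p, ac x (pt x p) = p
  pt_ac : ∀ x b, b ≠ L.em x → pt x (ac x b) = b
  pt_ne : ∀ x p, pt x p ≠ L.em x
  pt_zero : ∀ x, pt x 0 = L.ep x
  pt_smul : ∀ (g : Γ) x p, pt (g • x) p = g • pt x p
  pt_cont : Continuous fun q : X × E2 => pt q.1 q.2
  ac_cont : ContinuousOn (fun q : X × B => ac q.1 q.2) {q | q.2 ≠ L.em q.1}
  /-- the change of affine charts on one leaf is affine -/
  aff : ∀ x y, L.em x = L.em y → ∃ R : E2 ≃L[ℝ] E2, ∀ p, ac y (pt x p) = ac y (pt x 0) + R p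
  /-- the disc `e x` in the affine coordinate -/
  chi : X → E2 → E2
  chi_mem : ∀ x, ∀ p ∈ ball (0 : E2) 2, chi x p ∈ ball (0 : E2) 3
  e_chi : ∀ x, ∀ p ∈ ball (0 : E2) 2, L.e x (chi x p) = pt x p
  chi_jc : JC chi ((univ : Set X) ×ˢ ball 0 2)
  chi_inv : ∀ x, ∀ p ∈ ball (0 : E2) 2, (fderiv ℝ (chi x) p).IsInvertible

namespace AffIn

variable {L : Leaf Γ X B} (a : AffIn L)

theorem pt_inj (x : X) : Function.Injective (a.pt x) := fun p q h => by
  rw [← a.ac_pt x p, ← a.ac_pt x q, h]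

theorem ac_smul (g : Γ) (x : X) {b : B} (hb : b ≠ L.em x) : a.ac (g • x) (g • b) = a.ac x b := by
  conv_lhs => rw [← a.pt_ac x b hb, ← a.pt_smul, a.ac_pt]

theorem chi_smul (g : Γ) (x : X) {p : E2} (hp : p ∈ ball (0 : E2) 2) :
    a.chi (g • x) p = a.chi x p := by
  have h1 := a.e_chi (g • x) p hp
  rw [a.pt_smul, ← a.e_chi x p hp, ← L.e_smul g x _ (ball_sub (a.chi_mem x p hp))] at h1
  exact L.e_inj (g • x) (ball_sub (a.chi_mem _ p hp)) (ball_sub (a.chi_mem x p hp)) h1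

theorem fderiv_chi_smul (g : Γ) (x : X) {p : E2} (hp : p ∈ ball (0 : E2) 2) :
    fderiv ℝ (a.chi (g • x)) p = fderiv ℝ (a.chi x) p := by
  have h1 : a.chi (g • x) =ᶠ[𝓝 p] a.chi x := by
    filter_upwards [isOpen_ball.mem_nhds hp] with v hv using a.chi_smul g x hv
  exact h1.fderiv_eq

theorem chi_diff (x : X) {p : E2} (hp : p ∈ ball (0 : E2) 2) : DifferentiableAt ℝ (a.chi x) p :=
  a.chi_jc.differentiableAt (p := (x, p)) ⟨mem_univ _, hp⟩

/-- the derivative of the affine coordinate (in the chart `e x`), at the point of affine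
coordinate `p` -/
def dp (x : X) (p : E2) : E2 →L[ℝ] E2 := (fderiv ℝ (a.chi x) p).inverse

theorem dp_jc : JC a.dp ((univ : Set X) ×ˢ ball 0 2) :=
  a.chi_jc.fderiv.inverse fun p hp => a.chi_inv p.1 p.2 hp.2

theorem dp_smul (g : Γ) (x : X) {p : E2} (hp : p ∈ ball (0 : E2) 2) :
    a.dp (g • x) p = a.dp x p := by
  unfold dp
  rw [a.fderiv_chi_smul g x hp]

theorem dp_comp (x : X) {p : E2} (hp : p ∈ ball (0 : E2) 2) :
    a.dp x p ∘L fderiv ℝ (a.chi x) p = ContinuousLinearMap.id ℝ E2 := by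
  obtain ⟨A, hA⟩ := a.chi_inv x p hp
  unfold dp
  rw [← hA, ContinuousLinearMap.inverse_equiv]
  ext v
  simp

theorem comp_dp (x : X) {p : E2} (hp : p ∈ ball (0 : E2) 2) :
    fderiv ℝ (a.chi x) p ∘L a.dp x p = ContinuousLinearMap.id ℝ E2 := by
  obtain ⟨A, hA⟩ := a.chi_inv x p hp
  unfold dp
  rw [← hA, ContinuousLinearMap.inverse_equiv]
  ext v
  simp

/-! ### the change of charts -/

/-- the affine map from the coordinate of the second frame to the one of the first frame -/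
def al (z : Pr L) (y : E2) : E2 := a.ac z.1.1 (a.pt z.1.2 y)

theorem pt_al (z : Pr L) (y : E2) : a.pt z.1.1 (a.al z y) = a.pt z.1.2 y := by
  refine a.pt_ac _ _ ?_
  rw [z.2]
  exact a.pt_ne _ _

theorem al_cont : Continuous fun q : Pr L × E2 => a.al q.1 q.2 := by
  have h1 : Continuous fun q : Pr L × E2 => ((q.1.1.1, a.pt q.1.1.2 q.2) : X × B) := by
    have h2 := Pr_cont L
    have h3 : Continuous fun q : Pr L × E2 => a.pt q.1.1.2 q.2 :=
      a.pt_cont.comp (by fun_prop : Continuous fun q : Pr L × E2 => ((q.1.1.2, q.2) : X × E2))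
    exact (by fun_prop : Continuous fun q : Pr L × E2 => q.1.1.1).prodMk h3
  have h4 := a.ac_cont.comp_continuous h1 fun q => by
    show a.pt q.1.1.2 q.2 ≠ L.em q.1.1.1
    rw [q.1.2]
    exact a.pt_ne _ _
  exact h4

/-- linear part of `al` -/
def lin (z : Pr L) : E2 ≃L[ℝ] E2 := (a.aff z.1.2 z.1.1 z.2.symm).choose

theorem al_eq (z : Pr L) (y : E2) : a.al z y = a.al z 0 + a.lin z y :=
  (a.aff z.1.2 z.1.1 z.2.symm).choose_spec y

theorem al_sum (z : Pr L) (y : E2) : a.al z y = a.al z 0 + ∑ i, (y i) •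
    (a.al z (EuclideanSpace.basisFun (Fin _) ℝ i) - a.al z 0) := by
  have h1 : ∀ i, a.al z (EuclideanSpace.basisFun (Fin _) ℝ i) - a.al z 0 =
      a.lin z (EuclideanSpace.basisFun (Fin _) ℝ i) := fun i => by rw [a.al_eq z]; abel
  have h2 : y = ∑ i, (y i) • (EuclideanSpace.basisFun (Fin _) ℝ i) := by
    conv_lhs => rw [← (EuclideanSpace.basisFun (Fin _) ℝ).sum_repr y]
    simp
  rw [a.al_eq]
  congr 1
  conv_lhs => rw [h2]
  rw [map_sum]
  refine Finset.sum_congr rfl fun i _ => ?_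
  rw [h1, map_smul]

theorem al_jc : JC a.al (univ : Set (Pr L × E2)) := by
  have hc : ∀ v : E2, Continuous fun z : Pr L => a.al z v := fun v =>
    a.al_cont.comp (by fun_prop : Continuous fun z : Pr L => ((z, v) : Pr L × E2))
  have h1 : JC (fun (z : Pr L) (y : E2) => a.al z 0 + ∑ i, (y i) •
      (a.al z (EuclideanSpace.basisFun (Fin _) ℝ i) - a.al z 0)) univ := by
    refine (JC.param' isOpen_univ (hc 0)).add (JC.sum _ isOpen_univ fun i _ => ?_)
    refine JC.smul ?_ (JC.param' isOpen_univ ((hc _).sub (hc 0)))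
    exact (JC.id isOpen_univ).euclidean_apply i
  exact h1.congr fun p _ => a.al_sum p.1 p.2

/-- the domain of the cocycle relation -/
def Om : Set (Pr L × E2) := {q | q.2 ∈ ball (0 : E2) 2 ∧ a.al q.1 q.2 ∈ ball (0 : E2) 2}

theorem Om_open : IsOpen a.Om :=
  (isOpen_ball.preimage continuous_snd).inter (isOpen_ball.preimage a.al_cont)

theorem chi_al_mem {z : Pr L} {y : E2} (h : (z, y) ∈ a.Om) :
    a.chi z.1.1 (a.al z y) ∈ L.dm z.1.1 z.1.2 ∧
      L.τ z.1.1 z.1.2 (a.chi z.1.1 (a.al z y)) = a.chi z.1.2 y := by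
  obtain ⟨h1, h2⟩ := h
  have h3 : L.e z.1.2 (a.chi z.1.2 y) = L.e z.1.1 (a.chi z.1.1 (a.al z y)) := by
    rw [a.e_chi _ _ h1, a.e_chi _ _ h2, a.pt_al]
  exact ⟨mem_dm (a.chi_mem _ _ h2) (a.chi_mem _ _ h1) h3,
    tau_eq (ball_sub (a.chi_mem _ _ h1)) h3⟩

/-- the family `z, y ↦ chi z.1 (al z y)` -/
theorem chi_al_jc : JC (fun (z : Pr L) (y : E2) => a.chi z.1.1 (a.al z y)) a.Om := by
  have h1 : JC (fun (z : Pr L) (u : E2) => a.chi z.1.1 u)
      {q : Pr L × E2 | (q.1.1.1, q.2) ∈ (univ : Set X) ×ˢ ball (0 : E2) 2} := by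
    have h2 := Pr_cont L
    exact a.chi_jc.pullback (by fun_prop : Continuous fun z : Pr L => z.1.1)
  have h2 := h1.comp a.al_jc
  exact h2.mono a.Om_open fun q hq => ⟨mem_univ _, mem_univ _, hq.2⟩

theorem fderiv_chi_al {z : Pr L} {y : E2} (h : (z, y) ∈ a.Om) :
    fderiv ℝ (a.chi z.1.2) y = fderiv ℝ (L.τ z.1.1 z.1.2) (a.chi z.1.1 (a.al z y)) ∘L
      fderiv ℝ (a.chi z.1.1) (a.al z y) ∘L (a.lin z : E2 →L[ℝ] E2) := by
  obtain ⟨h1, h2⟩ := h
  have h3 := a.chi_al_mem ⟨h1, h2⟩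
  have hev : a.chi z.1.2 =ᶠ[𝓝 y] fun v => L.τ z.1.1 z.1.2 (a.chi z.1.1 (a.al z v)) := by
    have h4 : ∀ᶠ v in 𝓝 y, (z, v) ∈ a.Om :=
      (isOpen_slice a.Om_open z).mem_nhds ⟨h1, h2⟩
    filter_upwards [h4] with v hv using (a.chi_al_mem hv).2.symm
  have hal : HasFDerivAt (fun v => a.al z v) (a.lin z : E2 →L[ℝ] E2) y := by
    have h5 : (fun v => a.al z v) = fun v => a.al z 0 + (a.lin z : E2 →L[ℝ] E2) v :=
      funext fun v => a.al_eq z v
    rw [h5]
    exact ((a.lin z : E2 →L[ℝ] E2).hasFDerivAt).const_add _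
  have hchi : HasFDerivAt (a.chi z.1.1) (fderiv ℝ (a.chi z.1.1) (a.al z y)) (a.al z y) :=
    (a.chi_diff z.1.1 h2).hasFDerivAt
  have htau : HasFDerivAt (L.τ z.1.1 z.1.2)
      (fderiv ℝ (L.τ z.1.1 z.1.2) (a.chi z.1.1 (a.al z y))) (a.chi z.1.1 (a.al z y)) :=
    (tau_diff z.2 h3.1).hasFDerivAt
  have h6 : HasFDerivAt (fun v => L.τ z.1.1 z.1.2 (a.chi z.1.1 (a.al z v)))
      (fderiv ℝ (L.τ z.1.1 z.1.2) (a.chi z.1.1 (a.al z y)) ∘L
        (fderiv ℝ (a.chi z.1.1) (a.al z y) ∘L (a.lin z : E2 →L[ℝ] E2))) y :=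
    htau.comp y (hchi.comp y hal)
  rw [hev.fderiv_eq, h6.fderiv]

/-! ### the tensor -/

variable (T : Tens L)

/-- the tensor in the affine chart -/
def Nh (x : X) (p : E2) : E2 →L[ℝ] E2 :=
  a.dp x p ∘L T.N x (a.chi x p) ∘L ContinuousLinearMap.adjoint (a.dp x p)

/-- the smooth error of the cocycle relation in affine charts -/
def Eh (z : Pr L) (y : E2) : E2 →L[ℝ] E2 :=
  a.dp z.1.2 y ∘L T.R z.1.1 z.1.2 (a.chi z.1.1 (a.al z y)) ∘L
    ContinuousLinearMap.adjoint (a.dp z.1.2 y)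

theorem R_jc : JC (fun (q : Pr L) u => T.R q.1.1 q.1.2 u) (DM L) := by
  have h1 : Continuous fun q : Pr L × E2 => (((q.1.1.1, q.1.1.2), q.2) : (X × X) × E2) := by
    have := Pr_cont L
    fun_prop
  refine ⟨(isOpen_dm2 L).preimage h1, fun q => T.R_smooth _ _ q.2, fun k => ?_⟩
  exact (T.R_cont k).comp h1.continuousOn fun q hq => ⟨q.1.2, hq⟩

theorem Eh_jc : JC (a.Eh T) a.Om := by
  have h1 : JC (fun (z : Pr L) (y : E2) => T.R z.1.1 z.1.2 (a.chi z.1.1 (a.al z y))) a.Om :=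
    ((R_jc T).comp a.chi_al_jc).mono a.Om_open fun q hq => ⟨hq, (a.chi_al_mem hq).1⟩
  have h2 : JC (fun (z : Pr L) (y : E2) => a.dp z.1.2 y) a.Om := by
    have h3 := Pr_cont L
    have h4 := a.dp_jc.pullback (by fun_prop : Continuous fun z : Pr L => z.1.2)
    exact h4.mono a.Om_open fun q hq => ⟨mem_univ _, hq.1⟩
  have h3 : JC (fun (z : Pr L) (y : E2) => adjL (a.dp z.1.2 y)) a.Om := h2.clm adjL
  exact h2.clm_comp (h1.clm_comp h3)

theorem Nh_smul (g : Γ) (x : X) {p : E2} (hp : p ∈ ball (0 : E2) 2) :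
    a.Nh T (g • x) p = a.Nh T x p := by
  unfold Nh
  rw [a.dp_smul g x hp, a.chi_smul g x hp, T.N_smul g x _ (a.chi_mem x p hp)]

theorem Nh_symm (x : X) {p : E2} (v w : E2) :
    inner ℝ (a.Nh T x p v) w = inner ℝ v (a.Nh T x p w) := by
  unfold Nh
  simp only [ContinuousLinearMap.comp_apply]
  rw [← ContinuousLinearMap.adjoint_inner_right, T.N_symm, ContinuousLinearMap.adjoint_inner_left]

theorem Nh_cont : ContinuousOn (fun q : X × E2 => a.Nh T q.1 q.2)
    ((univ : Set X) ×ˢ ball (0 : E2) 2) := by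
  have h1 := a.dp_jc.continuousOn
  have h2 : ContinuousOn (fun q : X × E2 => T.N q.1 (a.chi q.1 q.2))
      ((univ : Set X) ×ˢ ball (0 : E2) 2) :=
    T.N_cont.comp (f := fun q : X × E2 => ((q.1, a.chi q.1 q.2) : X × E2))
      (continuous_fst.continuousOn.prodMk a.chi_jc.continuousOn)
      fun q hq => ⟨mem_univ _, a.chi_mem _ _ hq.2⟩
  have h3 : ContinuousOn (fun q : X × E2 => adjL (a.dp q.1 q.2))
      ((univ : Set X) ×ˢ ball (0 : E2) 2) := adjL.continuous.comp_continuousOn h1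
  exact h1.clm_comp (h2.clm_comp h3)

/-- **the cocycle relation in affine charts** -/
theorem Nh_cocycle {z : Pr L} {y : E2} (h : (z, y) ∈ a.Om) :
    a.Nh T z.1.2 y = ((a.lin z).symm : E2 →L[ℝ] E2) ∘L a.Nh T z.1.1 (a.al z y) ∘L
      ContinuousLinearMap.adjoint ((a.lin z).symm : E2 →L[ℝ] E2) + a.Eh T z y := by
  have h1 := a.chi_al_mem h
  have h2 := T.R_eq z.1.1 z.1.2 z.2 _ h1.1
  rw [h1.2] at h2
  have h3 := a.fderiv_chi_al h
  set u := a.chi z.1.1 (a.al z y) with hu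
  set Dt := fderiv ℝ (L.τ z.1.1 z.1.2) u with hDt
  -- `dp z.2 y ∘ Dτ = lin⁻¹ ∘ dp z.1 (al z y)`
  have h4 : a.dp z.1.2 y ∘L Dt = ((a.lin z).symm : E2 →L[ℝ] E2) ∘L a.dp z.1.1 (a.al z y) := by
    have e1 := a.dp_comp z.1.2 h.1
    rw [h3] at e1
    have e2 := a.comp_dp z.1.1 h.2
    calc a.dp z.1.2 y ∘L Dt
        = a.dp z.1.2 y ∘L Dt ∘L (fderiv ℝ (a.chi z.1.1) (a.al z y) ∘L
            a.dp z.1.1 (a.al z y)) := by rw [e2]; rfl
      _ = (a.dp z.1.2 y ∘L (Dt ∘L fderiv ℝ (a.chi z.1.1) (a.al z y) ∘L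
            (a.lin z : E2 →L[ℝ] E2))) ∘L
            (((a.lin z).symm : E2 →L[ℝ] E2) ∘L a.dp z.1.1 (a.al z y)) := by
          ext v
          simp
      _ = _ := by
          rw [e1]
          rfl
  have h5 : ContinuousLinearMap.adjoint Dt ∘L ContinuousLinearMap.adjoint (a.dp z.1.2 y) =
      ContinuousLinearMap.adjoint (a.dp z.1.1 (a.al z y)) ∘L
        ContinuousLinearMap.adjoint ((a.lin z).symm : E2 →L[ℝ] E2) := by
    rw [← ContinuousLinearMap.adjoint_comp, h4, ContinuousLinearMap.adjoint_comp]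
  unfold Nh Eh
  rw [← hu, h2]
  have e6 : a.dp z.1.2 y ∘L (Dt ∘L T.N z.1.1 u ∘L ContinuousLinearMap.adjoint Dt +
      T.R z.1.1 z.1.2 u) ∘L ContinuousLinearMap.adjoint (a.dp z.1.2 y) =
      (a.dp z.1.2 y ∘L Dt) ∘L T.N z.1.1 u ∘L
        (ContinuousLinearMap.adjoint Dt ∘L ContinuousLinearMap.adjoint (a.dp z.1.2 y)) +
      a.dp z.1.2 y ∘L T.R z.1.1 z.1.2 u ∘L ContinuousLinearMap.adjoint (a.dp z.1.2 y) := by
    ext v
    simp
  rw [e6, h4, h5]
  rfl

/-- the tensor, paired with forms -/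
def Nf (x : X) (p : E2) : Fm E2 →L[ℝ] ℝ := prL (EuclideanSpace.basisFun (Fin _) ℝ) (a.Nh T x p)

/-- the error, paired with forms -/
def Ef (z : Pr L) (y : E2) : Fm E2 →L[ℝ] ℝ :=
  prL (EuclideanSpace.basisFun (Fin _) ℝ) (a.Eh T z y)

theorem Ef_jc : JC (a.Ef T) a.Om :=
  (a.Eh_jc T).clm (prL (EuclideanSpace.basisFun (Fin _) ℝ))

theorem Nf_cont : ContinuousOn (fun q : X × E2 => a.Nf T q.1 q.2)
    ((univ : Set X) ×ˢ ball (0 : E2) 2) :=
  (prL (EuclideanSpace.basisFun (Fin _) ℝ)).continuous.comp_continuousOn (a.Nh_cont T)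

theorem Nf_smul (g : Γ) (x : X) {p : E2} (hp : p ∈ ball (0 : E2) 2) :
    a.Nf T (g • x) p = a.Nf T x p := by
  unfold Nf
  rw [a.Nh_smul T g x hp]

/-- **the cocycle relation for forms** -/
theorem Nf_cocycle {z : Pr L} {y : E2} (h : (z, y) ∈ a.Om) (s : Fm E2) :
    a.Nf T z.1.2 y (act (a.lin z).symm s) = a.Nf T z.1.1 (a.al z y) s +
      a.Ef T z y (act (a.lin z).symm s) := by
  unfold Nf Ef
  rw [a.Nh_cocycle T h, map_add, add_apply]
  congr 1
  exact prL_act _ (a.lin z).symm (a.Nh T z.1.1 (a.al z y)) s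

end AffIn

end Vale.Agent.P207.N4.H751
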