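import Vale.Agent.P207.N4.Dim
import Vale.Agent.P207.N4.H751.ZI1

/-!
# P207, line N4: uniform bounds for the tensor in the affine charts
-/

open Set Filter Topology Metric
open scoped ContDiff

noncomputable section

namespace Vale.Agent.P207.N4.H751

open Vale.Agent.P207.N3 Vale.Agent.P207.N3.Ten Vale.Agent.P207.N4.Ten Vale.Agent.P207.H751

variable [Dim]

variable {Γ X B : Type} [Group Γ] [MetricSpace X] [ProperSpace X] [MulAction Γ X]
  [IsIsometricSMul Γ X] [TopologicalSpace B] [CompactSpace B] [T2Space B] [MulAction Γ B]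
  [ContinuousConstSMul Γ B]

namespace AffIn

variable {L : Leaf Γ X B} (a : AffIn L)

instance instT2Pr (L : Leaf Γ X B) : T2Space (Pr L) :=
  inferInstanceAs (T2Space {p : X × X // L.em p.1 = L.em p.2})

/-- the action on pairs of frames -/
def sm (g : Γ) (z : Pr L) : Pr L := ⟨(g • z.1.1, g • z.1.2), by
  show L.em (g • z.1.1) = L.em (g • z.1.2)
  rw [L.em_smul, L.em_smul, z.2]⟩

/-- exchange of the two frames -/
def sw (z : Pr L) : Pr L := ⟨(z.1.2, z.1.1), z.2.symm⟩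

theorem sw_cont : Continuous (sw : Pr L → Pr L) := by
  have h := Pr_cont L
  have h2 : Continuous fun z : Pr L => ((z.1.2, z.1.1) : X × X) := by fun_prop
  exact Continuous.subtype_mk h2 fun z => z.2.symm

theorem al_sm (g : Γ) (z : Pr L) (y : E2) : a.al (sm g z) y = a.al z y := by
  show a.ac (g • z.1.1) (a.pt (g • z.1.2) y) = a.ac z.1.1 (a.pt z.1.2 y)
  rw [a.pt_smul, a.ac_smul]
  rw [z.2]
  exact a.pt_ne _ _

theorem lin_sub (z : Pr L) (y : E2) : a.lin z y = a.al z y - a.al z 0 := by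
  rw [a.al_eq z y]
  abel

theorem lin_sm (g : Γ) (z : Pr L) : a.lin (sm g z) = a.lin z := by
  refine ContinuousLinearEquiv.ext (funext fun y => ?_)
  rw [a.lin_sub, a.lin_sub, a.al_sm, a.al_sm]

theorem al_sw (z : Pr L) (y : E2) : a.al (sw z) (a.al z y) = y := by
  show a.ac z.1.2 (a.pt z.1.1 (a.al z y)) = y
  rw [a.pt_al, a.ac_pt]

theorem lin_sw (z : Pr L) (w : E2) :
    (a.lin z).symm w = a.al (sw z) (a.al z 0 + w) - a.al (sw z) (a.al z 0) := by
  have h1 : a.al z ((a.lin z).symm w) = a.al z 0 + w := by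
    rw [a.al_eq z ((a.lin z).symm w), ContinuousLinearEquiv.apply_symm_apply]
  rw [← h1, a.al_sw, a.al_sw, sub_zero]

theorem Om_sm (g : Γ) {z : Pr L} {y : E2} : (sm g z, y) ∈ a.Om ↔ (z, y) ∈ a.Om := by
  constructor
  · rintro ⟨h1, h2⟩
    refine ⟨h1, ?_⟩
    rw [← a.al_sm g z y]
    exact h2
  · rintro ⟨h1, h2⟩
    refine ⟨h1, ?_⟩
    show a.al (sm g z) y ∈ _
    rw [a.al_sm g z y]
    exact h2

variable (T : Tens L)

theorem Ef_sm (g : Γ) {z : Pr L} {y : E2} (h : (z, y) ∈ a.Om) :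
    a.Ef T (sm g z) y = a.Ef T z y := by
  refine ContinuousLinearMap.ext fun s' => ?_
  obtain ⟨s, rfl⟩ := (act (a.lin z).symm).surjective s'
  have h1 := a.Nf_cocycle T h s
  have h2 := a.Nf_cocycle T ((a.Om_sm g).2 h) s
  rw [a.lin_sm, a.al_sm] at h2
  have e1 : a.Nf T (sm g z).1.2 y = a.Nf T z.1.2 y := a.Nf_smul T g z.1.2 h.1
  have e2 : a.Nf T (sm g z).1.1 (a.al z y) = a.Nf T z.1.1 (a.al z y) := a.Nf_smul T g z.1.1 h.2
  rw [e1, e2, h1] at h2
  exact (add_left_cancel h2).symm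

theorem Ef_iter_sm (g : Γ) {z : Pr L} {y : E2} (h : (z, y) ∈ a.Om) (k : ℕ) :
    iteratedFDeriv ℝ k (a.Ef T (sm g z)) y = iteratedFDeriv ℝ k (a.Ef T z) y := by
  have h1 : a.Ef T (sm g z) =ᶠ[𝓝 y] a.Ef T z := by
    have h4 : ∀ᶠ v in 𝓝 y, (z, v) ∈ a.Om := (isOpen_slice a.Om_open z).mem_nhds h
    filter_upwards [h4] with v hv using a.Ef_sm T g hv
  exact (h1.iteratedFDeriv ℝ k).eq_of_nhds

/-- the pairs of bounded difference of levels, the second over the affine unit disc of the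
first -/
def BP (c : ℝ) (z : Pr L) : Prop := |L.lv z.1.2 - L.lv z.1.1| ≤ c ∧ ‖a.al z 0‖ ≤ 1

theorem BP_sm (g : Γ) {c : ℝ} {z : Pr L} (h : a.BP c z) : a.BP c (sm g z) := by
  refine ⟨?_, ?_⟩
  · show |L.lv (g • z.1.2) - L.lv (g • z.1.1)| ≤ c
    rw [L.lv_smul g z.1.2 z.1.1 z.2.symm]
    exact h.1
  · rw [a.al_sm]
    exact h.2

theorem kc_compact {K : Set X} (hK : IsCompact K) (c : ℝ) :
    IsCompact {z : Pr L | z.1.1 ∈ K ∧ a.BP c z} := by
  obtain ⟨c0, hc0⟩ : ∃ c0, ∀ x ∈ K, ‖L.lv x‖ ≤ c0 :=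
    hK.exists_bound_of_continuousOn L.lv_cont.continuousOn
  set K' : Set (B × B) := (fun q : X × E2 => (L.em q.1, a.pt q.1 q.2)) '' (K ×ˢ closedBall 0 1)
    with hK'def
  have hK' : IsCompact K' := by
    refine (hK.prod (isCompact_closedBall _ _)).image ?_
    exact (L.em_cont.comp continuous_fst).prodMk a.pt_cont
  have h2 := L.hopf_proper K' hK' (by
    rintro _ ⟨q, -, rfl⟩
    exact (a.pt_ne q.1 q.2).symm) (c0 + c)
  have h3 : IsCompact (K ×ˢ {x | (L.em x, L.ep x) ∈ K' ∧ |L.lv x| ≤ c0 + c}) := hK.prod h2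
  have h4 : IsClosed {p : X × X | L.em p.1 = L.em p.2} :=
    isClosed_eq (L.em_cont.comp continuous_fst) (L.em_cont.comp continuous_snd)
  have h5 : IsCompact ((fun z : Pr L => z.1) ⁻¹'
      (K ×ˢ {x | (L.em x, L.ep x) ∈ K' ∧ |L.lv x| ≤ c0 + c})) :=
    (h4.isClosedEmbedding_subtypeVal).isCompact_preimage h3
  refine h5.of_isClosed_subset ?_ ?_
  · have hp := Pr_cont L
    have c1 : Continuous fun z : Pr L => |L.lv z.1.2 - L.lv z.1.1| :=
      ((L.lv_cont.comp (continuous_snd.comp hp)).sub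
        (L.lv_cont.comp (continuous_fst.comp hp))).abs
    have c2 : Continuous fun z : Pr L => ‖a.al z 0‖ :=
      (a.al_cont.comp (by fun_prop : Continuous fun z : Pr L => ((z, 0) : Pr L × E2))).norm
    exact (hK.isClosed.preimage (continuous_fst.comp hp)).inter
      ((isClosed_le c1 continuous_const).inter (isClosed_le c2 continuous_const))
  · rintro z ⟨hz1, hz2, hz3⟩
    refine ⟨hz1, ⟨(z.1.1, a.al z 0), ⟨hz1, ?_⟩, ?_⟩, ?_⟩
    · rw [mem_closedBall, dist_zero_right]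
      exact hz3
    · show (L.em z.1.1, a.pt z.1.1 (a.al z 0)) = (L.em z.1.2, L.ep z.1.2)
      rw [a.pt_al, a.pt_zero, z.2]
    · have e1 := hc0 _ hz1
      rw [Real.norm_eq_abs] at e1
      calc |L.lv z.1.2| = |L.lv z.1.1 + (L.lv z.1.2 - L.lv z.1.1)| := by ring_nf
        _ ≤ |L.lv z.1.1| + |L.lv z.1.2 - L.lv z.1.1| := abs_add_le _ _
        _ ≤ c0 + c := add_le_add e1 hz2

/-- uniform bounds for the errors -/
theorem Ef_bound (c : ℝ) (k : ℕ) : ∃ C, ∀ z : Pr L, a.BP c z → ∀ y : E2, ‖y‖ ≤ 1 →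
    ‖a.al z y‖ ≤ 1 → ‖iteratedFDeriv ℝ k (a.Ef T z) y‖ ≤ C := by
  obtain ⟨K, hK, hcov⟩ := L.cocompact
  set S : Set (Pr L × E2) := {q | q.1 ∈ {z : Pr L | z.1.1 ∈ K ∧ a.BP c z} ∧
    ‖q.2‖ ≤ 1 ∧ ‖a.al q.1 q.2‖ ≤ 1} with hS
  have hSc : IsCompact S := by
    have h1 := (a.kc_compact hK c).prod (isCompact_closedBall (0 : E2) 1)
    refine h1.of_isClosed_subset ?_ ?_
    · exact ((a.kc_compact hK c).isClosed.preimage continuous_fst).inter
        ((isClosed_le continuous_snd.norm continuous_const).inter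
          (isClosed_le a.al_cont.norm continuous_const))
    · rintro q ⟨h2, h3, -⟩
      refine ⟨h2, ?_⟩
      rw [mem_closedBall, dist_zero_right]
      exact h3
  have hSO : S ⊆ a.Om := by
    rintro q ⟨-, h2, h3⟩
    refine ⟨?_, ?_⟩
    · rw [mem_ball, dist_zero_right]
      linarith
    · rw [mem_ball, dist_zero_right]
      linarith
  obtain ⟨C, hC⟩ := (a.Ef_jc T).bound hSc hSO k
  refine ⟨C, fun z hz y hy hal => ?_⟩
  obtain ⟨g, hg⟩ := hcov z.1.1
  have hO : (z, y) ∈ a.Om := by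
    refine ⟨?_, ?_⟩
    · rw [mem_ball, dist_zero_right]
      linarith
    · rw [mem_ball, dist_zero_right]
      linarith
  rw [← a.Ef_iter_sm T g hO k]
  refine hC (sm g z, y) ⟨⟨hg, a.BP_sm g hz⟩, hy, ?_⟩
  show ‖a.al (sm g z) y‖ ≤ 1
  rw [a.al_sm]
  exact hal

/-- a linear map which is bounded on the unit ball -/
theorem lin_of_unit {F : E2 → E2} (hF : ∀ (r : ℝ) (w : E2), F (r • w) = r • F w) {C : ℝ}
    (h : ∀ w : E2, ‖w‖ ≤ 1 → ‖F w‖ ≤ C) (w : E2) : ‖F w‖ ≤ C * ‖w‖ := by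
  rcases eq_or_ne w 0 with rfl | hw
  · have h1 := hF 0 0
    rw [zero_smul, zero_smul] at h1
    rw [h1]
    simp
  · have hn : 0 < ‖w‖ := norm_pos_iff.2 hw
    have h1 : w = ‖w‖ • (‖w‖⁻¹ • w) := by
      rw [smul_smul, mul_inv_cancel₀ hn.ne', one_smul]
    have h2 : ‖‖w‖⁻¹ • w‖ ≤ 1 := by
      rw [norm_smul, norm_inv, norm_norm, inv_mul_cancel₀ hn.ne']
    calc ‖F w‖ = ‖‖w‖ • F (‖w‖⁻¹ • w)‖ := by rw [← hF, ← h1]
      _ = ‖w‖ * ‖F (‖w‖⁻¹ • w)‖ := by rw [norm_smul, norm_norm]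
      _ ≤ ‖w‖ * C := by gcongr; exact h _ h2
      _ = C * ‖w‖ := mul_comm _ _

theorem lin_bound (c : ℝ) : ∃ C, 1 ≤ C ∧ ∀ z : Pr L, a.BP c z →
    (∀ w, ‖a.lin z w‖ ≤ C * ‖w‖) ∧ ∀ w, ‖(a.lin z).symm w‖ ≤ C * ‖w‖ := by
  obtain ⟨K, hK, hcov⟩ := L.cocompact
  have hc := (a.kc_compact hK c).prod (isCompact_closedBall (0 : E2) 1)
  have k1 : Continuous fun q : Pr L × E2 => a.al q.1 q.2 - a.al q.1 0 :=
    a.al_cont.sub (a.al_cont.comp (by fun_prop : Continuous fun q : Pr L × E2 =>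
      ((q.1, 0) : Pr L × E2)))
  have k2 : Continuous fun q : Pr L × E2 =>
      a.al (sw q.1) (a.al q.1 0 + q.2) - a.al (sw q.1) (a.al q.1 0) := by
    have e0 : Continuous fun q : Pr L × E2 => a.al q.1 0 :=
      a.al_cont.comp (by fun_prop : Continuous fun q : Pr L × E2 => ((q.1, 0) : Pr L × E2))
    have es : Continuous fun q : Pr L × E2 => sw q.1 := sw_cont.comp continuous_fst
    exact (a.al_cont.comp (es.prodMk (e0.add continuous_snd))).sub
      (a.al_cont.comp (es.prodMk e0))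
  obtain ⟨C1, hC1⟩ := hc.exists_bound_of_continuousOn k1.continuousOn
  obtain ⟨C2, hC2⟩ := hc.exists_bound_of_continuousOn k2.continuousOn
  refine ⟨max 1 (max C1 C2), le_max_left _ _, fun z hz => ?_⟩
  obtain ⟨g, hg⟩ := hcov z.1.1
  have hz' := a.BP_sm g hz
  have hmem : ∀ w : E2, ‖w‖ ≤ 1 → ((sm g z, w) : Pr L × E2) ∈
      {z : Pr L | z.1.1 ∈ K ∧ a.BP c z} ×ˢ closedBall (0 : E2) 1 := fun w hw =>
    ⟨⟨hg, hz'⟩, by rw [mem_closedBall, dist_zero_right]; exact hw⟩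
  constructor
  · refine lin_of_unit (F := fun w => a.lin z w) (fun r w => map_smul _ _ _) fun w hw => ?_
    have h1 := hC1 _ (hmem w hw)
    simp only [] at h1
    rw [← a.lin_sub, a.lin_sm] at h1
    exact h1.trans ((le_max_left _ _).trans (le_max_right _ _))
  · refine lin_of_unit (F := fun w => (a.lin z).symm w) (fun r w => map_smul _ _ _) fun w hw => ?_
    have h1 := hC2 _ (hmem w hw)
    simp only [] at h1
    rw [← a.lin_sw, a.lin_sm] at h1
    exact h1.trans ((le_max_right _ _).trans (le_max_right _ _))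

theorem Nf_bound : ∃ C, ∀ v, ∀ x ∈ ball (0 : E2) 1, ‖a.Nf T v x‖ ≤ C := by
  obtain ⟨K, hK, hcov⟩ := L.cocompact
  have hc := hK.prod (isCompact_closedBall (0 : E2) 1)
  have hsub : K ×ˢ closedBall (0 : E2) 1 ⊆ (univ : Set X) ×ˢ ball (0 : E2) 2 := by
    rintro q ⟨-, h2⟩
    rw [mem_closedBall, dist_zero_right] at h2
    refine ⟨mem_univ _, ?_⟩
    rw [mem_ball, dist_zero_right]
    linarith
  obtain ⟨C, hC⟩ := hc.exists_bound_of_continuousOn ((a.Nf_cont T).mono hsub)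
  refine ⟨C, fun v x hx => ?_⟩
  obtain ⟨g, hg⟩ := hcov v
  have h1 := hC (g • v, x) ⟨hg, ball_subset_closedBall hx⟩
  rw [a.Nf_smul T g v (ball_subset_ball (by norm_num) hx)] at h1
  exact h1

/-- convergence of frames implies uniform convergence of the tensors -/
theorem Nf_unif {x : ℕ → X} {w : X} (h : Tendsto x atTop (𝓝 w)) :
    TendstoUniformlyOn (fun n => a.Nf T (x n)) (a.Nf T w) atTop (ball 0 1) := by
  have hK : IsCompact (closedBall w 1 ×ˢ closedBall (0 : E2) 1) :=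
    (isCompact_closedBall w 1).prod (isCompact_closedBall _ _)
  have hsub : closedBall w 1 ×ˢ closedBall (0 : E2) 1 ⊆ (univ : Set X) ×ˢ ball (0 : E2) 2 := by
    rintro q ⟨-, h2⟩
    rw [mem_closedBall, dist_zero_right] at h2
    refine ⟨mem_univ _, ?_⟩
    rw [mem_ball, dist_zero_right]
    linarith
  have hu := hK.uniformContinuousOn_of_continuous ((a.Nf_cont T).mono hsub)
  rw [Metric.uniformContinuousOn_iff] at hu
  rw [Metric.tendstoUniformlyOn_iff]
  intro e he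
  obtain ⟨d, hd, hu⟩ := hu e he
  have h1 : ∀ᶠ n in atTop, dist (x n) w < min d 1 :=
    h.eventually (ball_mem_nhds w (lt_min hd one_pos))
  filter_upwards [h1] with n hn p hp
  have hp' : p ∈ closedBall (0 : E2) 1 := ball_subset_closedBall hp
  refine hu (w, p) ⟨mem_closedBall_self zero_le_one, hp'⟩ (x n, p)
    ⟨(hn.trans_le (min_le_right _ _)).le, hp'⟩ ?_
  rw [Prod.dist_eq, dist_self, max_lt_iff, dist_comm]
  exact ⟨hn.trans_le (min_le_left _ _), hd⟩

/-- convergence modulo the group -/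
theorem Nf_unif_smul {x : ℕ → X} {g : ℕ → Γ} {w : X}
    (h : Tendsto (fun n => g n • x n) atTop (𝓝 w)) :
    TendstoUniformlyOn (fun n => a.Nf T (x n)) (a.Nf T w) atTop (ball 0 1) := by
  refine (a.Nf_unif T h).congr (Eventually.of_forall fun n p hp => ?_)
  exact a.Nf_smul T (g n) (x n) (ball_subset_ball (by norm_num) hp)

theorem cpt (v : ℕ → X) : ∃ w, ∃ ψ : ℕ → ℕ, StrictMono ψ ∧
    TendstoUniformlyOn (fun n => a.Nf T (v (ψ n))) (a.Nf T w) atTop (ball 0 1) := by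
  obtain ⟨K, hK, hcov⟩ := L.cocompact
  choose g hg using fun n => hcov (v n)
  obtain ⟨w, -, ψ, hψ, hw⟩ := hK.tendsto_subseq hg
  exact ⟨w, ψ, hψ, a.Nf_unif_smul T (g := fun n => g (ψ n)) hw⟩

end AffIn

end Vale.Agent.P207.N4.H751
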