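import Vale.Agent.P207.N4.Dim
import Vale.Agent.P207.N4.H751.ZQ3
import Vale.Agent.P207.H751.Rep
import Vale.Agent.P207.H734.TyC
import Vale.Agent.P207.H387.X2

/-!
# P207, quarter pinching: the actions of the zoom data `zdk` are the representation on forms
-/

open Set Filter Topology Metric
open scoped ContDiff

noncomputable section

namespace Vale.Agent.P207.N4.H751

open Vale.Agent.P207.N3 Vale.Agent.P207.N3.Ten Vale.Agent.P207.N4.Ten Vale.Agent.P207.H751
open Vale.Agent.P207.H686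

variable [Dim]

variable {Γ X B : Type} [Group Γ] [MetricSpace X] [ProperSpace X] [MulAction Γ X]
  [IsIsometricSMul Γ X] [TopologicalSpace B] [CompactSpace B] [T2Space B] [MulAction Γ B]
  [ContinuousConstSMul Γ B] {L : Leaf Γ X B} {a : AffIn L}

theorem hasRep (r : RateQ a) (T : Tens L) : H734.HasRep (zdk r T) (prF E2) where
  st := by
    rintro v A S v' ⟨-, rfl, rfl⟩ s
    rfl
  bc := by
    intro v p R S v' h s
    have h1 : S = act R := h.2.2.2.2.2
    rw [h1]
    rfl

/-- the derived action and the steps -/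
theorem zdk_hrho (r : RateQ a) (T : Tens L) {v : X} {A : E2 ≃L[ℝ] E2} {S : Fm E2 ≃L[ℝ] Fm E2}
    {v' : X} (h : (zdk r T).St v A S v') (Y : E2 →L[ℝ] E2) (s : Fm E2) :
    S (dF E2 Y s) = dF E2 (H106.Aff.cj A Y) (S s) := by
  have h1 : S = act A := by
    rcases h with ⟨-, rfl, rfl⟩
    rfl
  rw [h1]
  exact act_dF A Y s

theorem rch_ch {D : ZDk 4 E2 (Fm E2) X} {v u w : X} {A0 A : E2 ≃L[ℝ] E2}
    {S : Fm E2 ≃L[ℝ] Fm E2} {n : ℕ} (h0 : H734.Rch D v A0 u) (h : Ch D.St u n A S w) :
    H734.Rch D v (A0.trans A) w := by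
  induction h with
  | zero =>
    have e : A0.trans (ContinuousLinearEquiv.refl ℝ E2) = A0 := ContinuousLinearEquiv.ext rfl
    rw [e]
    exact h0
  | @succ n A S w A' S' w' _ h2 ih =>
    have e : A0.trans (A.trans A') = (A0.trans A).trans A' := ContinuousLinearEquiv.ext rfl
    rw [e]
    exact H734.Rch.st ih h2

/-- a frame with dense forward orbit, in the words of 734 -/
theorem denseFrom (r : RateQ a) (T : Tens L) {v0 : X} (h : N4.H387.DenseF L v0) :
    H734.DenseFrom (zdk r T) v0 := by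
  intro w
  obtain ⟨R, S, u, n, A, Lc, w', h1, h2, -, h3⟩ := h.chains r T w
  exact ⟨fun i => ((ContinuousLinearEquiv.refl ℝ E2).trans (R i)).trans (A i), w',
    fun i => rch_ch (H734.Rch.bc (H734.Rch.refl v0) (h1 i)) (h2 i), h3⟩

theorem exists_denseFrom (r : RateQ a) (T : Tens L) :
    ∃ v0 : X, N4.H387.DenseF L v0 ∧ H734.DenseFrom (zdk r T) v0 := by
  obtain ⟨v0, h⟩ := N4.H387.exists_dense_frame L
  exact ⟨v0, h, denseFrom r T h⟩

end Vale.Agent.P207.N4.H751
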