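import Vale.Agent.P207.N4.Dim
import Vale.Agent.P207.N4.H751.HR
import Vale.Agent.P207.H106.Aff.Use1F
import Vale.Agent.P207.H686.K.Close
import Vale.Agent.P207.H80.FmRep

/-!
# P207, quarter pinching: (C1) for affine sections of the zoom data `zdk`, no hypothesis
-/

open Set Filter Topology Metric
open scoped ContDiff

noncomputable section

namespace Vale.Agent.P207.N4.H751

open Vale.Agent.P207.N3 Vale.Agent.P207.N3.Ten Vale.Agent.P207.N4.Ten Vale.Agent.P207.H751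
open Vale.Agent.P207.H686

/-- (C1) for affine sections from the type lemma at one frame with dense orbit -/
theorem afC_of {k0 k1 : ℕ} {E W X : Type} [NormedAddCommGroup E] [NormedSpace ℝ E]
    [FiniteDimensional ℝ E] [NormedAddCommGroup W] [NormedSpace ℝ W] [FiniteDimensional ℝ W]
    (D : ZDk k0 E W X) (ρ : H734.PRep E W) (hρ : H734.HasRep D ρ) (hpol : ρ.IsPol)
    (h1 : D.lam ^ k1 * (D.Lam * D.mu) < 1) (hmu : D.lam ^ 2 * D.mu < 1)
    (hrho : ∀ {v A L v'}, D.St v A L v' → ∀ Y s, L (ρ.d Y s) = ρ.d (H106.Aff.cj A Y) (L s))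
    {v0 : X} (hd : H734.DenseFrom D v0) : ∀ i ≥ k1, H387.Q4.AfC D i := by
  have hpol' : ρ.aff.IsPol := H80.Orb.Pol.aff hpol
  obtain ⟨ε, hε, C, -, hT⟩ := H734.tyA hρ h1 (fun w η hη => (D.aff k1 h1).sm_close w hη) hd
    (fun k θ₀ => hpol'.eqn θ₀)
  obtain ⟨C', hC', hT'⟩ := H106.Aff.tyA_of_ex (rho := -ρ.d) (v0 := v0) D h1 (fun u => by
    obtain ⟨Y, -, hY⟩ := hT v0 (fun x _ => by rw [sub_self, norm_zero]; exact hε.le) u
    refine ⟨-Y, fun p hp => ?_⟩
    have e1 : H106.Aff.rhoA (-ρ.d) (-Y) p = ρ.aff.d Y p := by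
      rw [H734.PRep.aff_d]
      unfold H106.Aff.rhoA
      refine Prod.ext ?_ ?_
      · show (-ρ.d) (-Y) p.1 = ρ.d Y p.1
        rw [neg_apply, map_neg, neg_neg]
      · show ((-ρ.d) (-Y)).comp p.2 - p.2.comp (-Y) = (ρ.d Y).comp p.2 + p.2.comp Y
        rw [neg_apply, map_neg, neg_neg, ContinuousLinearMap.comp_neg, sub_neg_eq_add]
    rw [e1]
    exact hY p hp)
  refine H106.Aff.afC_fwd D h1 (rho := -ρ.d) (fun h Y s => ?_) hmu hC' hT'
  have e : (-ρ.d) Y s = -(ρ.d Y s) := rfl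
  rw [e, map_neg, hrho h]
  rfl

variable [Dim]

variable {Γ X B : Type} [Group Γ] [MetricSpace X] [ProperSpace X] [MulAction Γ X]
  [IsIsometricSMul Γ X] [TopologicalSpace B] [CompactSpace B] [T2Space B] [MulAction Γ B]
  [ContinuousConstSMul Γ B] {L : Leaf Γ X B} {a : AffIn L}

/-- **(C1) for affine sections of `zdk`**, no hypothesis -/
theorem afC_zdk (r : RateQ a) (T : Tens L) : ∀ i ≥ 6, H387.Q4.AfC (zdk r T) i := by
  obtain ⟨v0, -, hd⟩ := exists_denseFrom r T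
  exact afC_of (zdk r T) (prF E2) (hasRep r T) prF_pol (zdk_h6 r T) (zdk_h2 r T)
    (fun h Y s => zdk_hrho r T h Y s) hd

end Vale.Agent.P207.N4.H751
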