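import Vale.Agent.P207.N4.Dim
import Vale.Agent.P207.N4.H751.ZI2
import Vale.Agent.P207.H686.K.ZDk

/-!
# P207, THEOREM P: the zoom data of the tensor with steps of variable time

`RateV a`: the flow at the time `th x ∈ [t1, T0]` in the affine charts, with `b < 2 a` for the
clock `S0`. `zdv`: the instance of `ZDk 4` (686).
-/

open Set Filter Topology Metric
open scoped ContDiff

noncomputable section

namespace Vale.Agent.P207.N4.H751

open Vale.Agent.P207.N3 Vale.Agent.P207.N3.Ten Vale.Agent.P207.N4.Ten Vale.Agent.P207.H751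
open Vale.Agent.P207.H686

variable [Dim]

variable {Γ X B : Type} [Group Γ] [MetricSpace X] [ProperSpace X] [MulAction Γ X]
  [IsIsometricSMul Γ X] [TopologicalSpace B] [CompactSpace B] [T2Space B] [MulAction Γ B]
  [ContinuousConstSMul Γ B]

/-- the flow at the variable time `th x` in the affine charts, and its rates -/
structure RateV {L : Leaf Γ X B} (a : AffIn L) where
  T0 : ℝ
  t1 : ℝ
  t1_pos : 0 < t1
  t1_le : t1 ≤ T0
  th : X → ℝ
  th_ge : ∀ x, t1 ≤ th x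
  th_le : ∀ x, th x ≤ T0
  th_ex : ∀ y, ∃ x, L.φ (th x) x = y
  S0 : ℝ
  S0_pos : 0 < S0
  ra : ℝ
  rb : ℝ
  ra_pos : 0 < ra
  ra_le : ra ≤ rb
  pinch : rb < 2 * ra
  P : X → E2 ≃L[ℝ] E2
  flow : ∀ x q, a.pt (L.φ (th x) x) (P x q) = a.pt x q
  lo : ∀ x q, Real.exp (ra * S0) * ‖q‖ ≤ ‖P x q‖
  hi : ∀ x q, ‖P x q‖ ≤ Real.exp (rb * S0) * ‖q‖

namespace RateV

variable {L : Leaf Γ X B} {a : AffIn L} (r : RateV a)

theorem T0_pos : 0 < r.T0 := r.t1_pos.trans_le r.t1_le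

theorem th_pos (x : X) : 0 < r.th x := r.t1_pos.trans_le (r.th_ge x)

/-- the step map -/
def psi (x : X) : X := L.φ (r.th x) x

theorem em_psi (x : X) : L.em (r.psi x) = L.em x := L.em_φ _ _

theorem ep_psi (x : X) : L.ep (r.psi x) = L.ep x := by
  unfold psi
  rw [ep_φ]

theorem lv_psi (x : X) : L.lv (r.psi x) = L.lv x + r.th x := L.lv_φ _ _

/-- backward steps down to a given level -/
theorem exists_back (l : ℝ) : ∀ (m : ℕ) (y : X), l ≤ L.lv y → L.lv y - l ≤ m * r.t1 →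
    ∃ (n : ℕ) (u : X), r.psi^[n] u = y ∧ L.em u = L.em y ∧ L.ep u = L.ep y ∧ l ≤ L.lv u ∧
      L.lv u ≤ l + r.T0 ∧ L.lv y - l ≤ ((n : ℝ) + 1) * r.T0 := by
  intro m
  induction m with
  | zero =>
    intro y h1 h2
    have hT := r.T0_pos
    rw [Nat.cast_zero, zero_mul] at h2
    refine ⟨0, y, rfl, rfl, rfl, h1, by linarith, ?_⟩
    rw [Nat.cast_zero]
    linarith
  | succ m ih =>
    intro y h1 h2
    have hT := r.T0_pos
    rcases le_or_gt (L.lv y) (l + r.T0) with h3 | h3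
    · refine ⟨0, y, rfl, rfl, rfl, h1, h3, ?_⟩
      rw [Nat.cast_zero]
      linarith
    · obtain ⟨y', hy'⟩ := r.th_ex y
      have e1 : r.psi y' = y := hy'
      have e2 : L.lv y = L.lv y' + r.th y' := by rw [← e1, r.lv_psi]
      have e3 := r.th_ge y'
      have e4 := r.th_le y'
      push_cast at h2
      obtain ⟨n, u, g1, g2, g3, g4, g5, g6⟩ := ih y' (by linarith) (by linarith)
      refine ⟨n + 1, u, ?_, ?_, ?_, g4, g5, ?_⟩
      · rw [Function.iterate_succ_apply', g1, e1]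
      · rw [g2, ← e1, r.em_psi]
      · rw [g3, ← e1, r.ep_psi]
      · push_cast
        linarith

theorem exists_back' (l : ℝ) (y : X) (h : l ≤ L.lv y) :
    ∃ (n : ℕ) (u : X), r.psi^[n] u = y ∧ L.em u = L.em y ∧ L.ep u = L.ep y ∧
      |L.lv u - l| ≤ r.T0 ∧ L.lv y - l ≤ ((n : ℝ) + 1) * r.T0 := by
  obtain ⟨m, hm⟩ := exists_nat_ge ((L.lv y - l) / r.t1)
  rw [div_le_iff₀ r.t1_pos] at hm
  obtain ⟨n, u, h1, h2, h3, h4, h5, h6⟩ := r.exists_back l m y h hm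
  have hT := r.T0_pos
  exact ⟨n, u, h1, h2, h3, by rw [abs_le]; constructor <;> linarith, h6⟩

theorem P_symm (x : X) (q : E2) : ‖(r.P x).symm q‖ ≤ Real.exp (-(r.ra * r.S0)) * ‖q‖ := by
  have h1 := r.lo x ((r.P x).symm q)
  rw [ContinuousLinearEquiv.apply_symm_apply] at h1
  rw [Real.exp_neg]
  have h2 := Real.exp_pos (r.ra * r.S0)
  rw [inv_mul_eq_div, le_div_iff₀ h2, mul_comm]
  exact h1

/-- one step of the flow -/
def St (v : X) (A : E2 ≃L[ℝ] E2) (S : Fm E2 ≃L[ℝ] Fm E2) (v' : X) : Prop :=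
  v' = r.psi v ∧ A = r.P v ∧ S = act A

/-- change of base point and of frame -/
def BC (v : X) (p : E2) (R : E2 ≃L[ℝ] E2) (S : Fm E2 ≃L[ℝ] Fm E2) (v' : X) : Prop :=
  L.em v' = L.em v ∧ |L.lv v' - L.lv v| ≤ r.T0 ∧ ‖p‖ < 1 ∧ L.ep v' = a.pt v p ∧
    (∀ y, a.pt v' y = a.pt v (p + R.symm y)) ∧ S = act R

/-- the pair of a step -/
def zst (v : X) : Pr L := ⟨(v, r.psi v), (r.em_psi v).symm⟩

theorem al_zst (v : X) (y : E2) : a.al (r.zst v) y = (r.P v).symm y := by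
  show a.ac v (a.pt (r.psi v) y) = _
  have h : a.pt (r.psi v) (r.P v ((r.P v).symm y)) = _ := r.flow v ((r.P v).symm y)
  rw [ContinuousLinearEquiv.apply_symm_apply] at h
  rw [h, a.ac_pt]

theorem lin_zst (v : X) : a.lin (r.zst v) = (r.P v).symm := by
  refine ContinuousLinearEquiv.ext (funext fun y => ?_)
  rw [a.lin_sub, r.al_zst, r.al_zst, map_zero, sub_zero]

theorem BP_zst (v : X) : a.BP r.T0 (r.zst v) := by
  refine ⟨?_, ?_⟩
  · show |L.lv (r.psi v) - L.lv v| ≤ r.T0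
    rw [r.lv_psi, add_sub_cancel_left, abs_of_pos (r.th_pos v)]
    exact r.th_le v
  · rw [r.al_zst, map_zero, norm_zero]
    exact zero_le_one

section BCsec

variable {r} {v v' : X} {p : E2} {R : E2 ≃L[ℝ] E2} {S : Fm E2 ≃L[ℝ] Fm E2}

/-- the pair of a change of base point -/
def zbc (h : r.BC v p R S v') : Pr L := ⟨(v, v'), h.1.symm⟩

theorem al_zbc (h : r.BC v p R S v') (y : E2) : a.al (zbc h) y = p + R.symm y := by
  show a.ac v (a.pt v' y) = _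
  rw [h.2.2.2.2.1, a.ac_pt]

theorem lin_zbc (h : r.BC v p R S v') : a.lin (zbc h) = R.symm := by
  refine ContinuousLinearEquiv.ext (funext fun y => ?_)
  rw [a.lin_sub, al_zbc, al_zbc, map_zero]
  abel

theorem BP_zbc (h : r.BC v p R S v') : a.BP r.T0 (zbc h) := by
  refine ⟨h.2.1, ?_⟩
  rw [al_zbc, map_zero, add_zero]
  exact h.2.2.1.le

end BCsec

theorem BC_ex (v : X) {p : E2} (hp : p ∈ ball (0 : E2) 1) {v' : X} (h1 : L.em v' = L.em v)
    (h2 : |L.lv v' - L.lv v| ≤ r.T0) (h3 : L.ep v' = a.pt v p) :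
    ∃ R S, r.BC v p R S v' := by
  rw [mem_ball, dist_zero_right] at hp
  set z : Pr L := ⟨(v, v'), h1.symm⟩ with hz
  refine ⟨(a.lin z).symm, act (a.lin z).symm, h1, h2, hp, h3, fun y => ?_, rfl⟩
  have e1 : a.al z 0 = p := by
    show a.ac v (a.pt v' 0) = p
    rw [a.pt_zero, h3, a.ac_pt]
  rw [ContinuousLinearEquiv.symm_symm, ← e1, ← a.al_eq]
  exact (a.pt_al z y).symm

variable (T : Tens L)

theorem chain (n : ℕ) (v : X) : ∃ A S, Ch r.St v n A S (r.psi^[n] v) := by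
  induction n with
  | zero =>
    exact ⟨ContinuousLinearEquiv.refl ℝ E2, ContinuousLinearEquiv.refl ℝ (Fm E2), Ch.zero v⟩
  | succ n ih =>
    obtain ⟨A, S, h⟩ := ih
    refine ⟨A.trans (r.P (r.psi^[n] v)), S.trans (act (r.P (r.psi^[n] v))), ?_⟩
    refine Ch.succ h ⟨?_, rfl, rfl⟩
    rw [Function.iterate_succ_apply']

/-- the bounds of the errors -/
def Mb (k : ℕ) : ℝ := (a.Ef_bound T r.T0 k).choose

theorem Mb_spec {k : ℕ} {z : Pr L} (hz : a.BP r.T0 z) {y : E2} (hy : ‖y‖ ≤ 1)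
    (hal : ‖a.al z y‖ ≤ 1) : ‖iteratedFDeriv ℝ k (a.Ef T z) y‖ ≤ r.Mb T k :=
  (a.Ef_bound T r.T0 k).choose_spec z hz y hy hal

theorem Ef_contDiffOn {z : Pr L} {O : Set E2} (hO : ∀ y ∈ O, (z, y) ∈ a.Om) :
    ContDiffOn ℝ ∞ (a.Ef T z) O := fun y hy =>
  ((a.Ef_jc T).contDiffAt (p := (z, y)) (hO y hy)).contDiffWithinAt

theorem mem_Om {z : Pr L} {y : E2} (hy : ‖y‖ ≤ 1) (hal : ‖a.al z y‖ ≤ 1) : (z, y) ∈ a.Om := by
  refine ⟨?_, ?_⟩
  · rw [mem_ball, dist_zero_right]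
    linarith
  · rw [mem_ball, dist_zero_right]
    show ‖a.al z y‖ < 2
    linarith

theorem zst_le (v : X) {y : E2} (hy : ‖y‖ ≤ 1) : ‖a.al (r.zst v) y‖ ≤ 1 := by
  rw [r.al_zst]
  refine (r.P_symm v y).trans ?_
  have h1 : Real.exp (-(r.ra * r.S0)) ≤ 1 := by
    rw [Real.exp_le_one_iff]
    have := mul_pos r.ra_pos r.S0_pos
    linarith
  calc Real.exp (-(r.ra * r.S0)) * ‖y‖ ≤ 1 * 1 :=
        mul_le_mul h1 hy (norm_nonneg _) zero_le_one
    _ = 1 := one_mul 1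

theorem St_N {v : X} {A : E2 ≃L[ℝ] E2} {S : Fm E2 ≃L[ℝ] Fm E2} {v' : X} (h : r.St v A S v') :
    ∃ e : E2 → Fm E2 →L[ℝ] ℝ, ContDiffOn ℝ ∞ e (ball 0 1) ∧
    (∀ k, ∀ x ∈ ball (0 : E2) 1, ‖iteratedFDeriv ℝ k e x‖ ≤ r.Mb T k) ∧
    ∀ x ∈ ball (0 : E2) 1, ∀ s, a.Nf T v' x (S s) = a.Nf T v (A.symm x) s + e x (S s) := by
  obtain ⟨rfl, rfl, rfl⟩ := h
  refine ⟨a.Ef T (r.zst v), Ef_contDiffOn T fun y hy => ?_, fun k y hy => ?_, fun y hy s => ?_⟩
  · rw [mem_ball, dist_zero_right] at hy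
    exact mem_Om hy.le (r.zst_le v hy.le)
  · rw [mem_ball, dist_zero_right] at hy
    exact r.Mb_spec T (r.BP_zst v) hy.le (r.zst_le v hy.le)
  · rw [mem_ball, dist_zero_right] at hy
    have h1 := a.Nf_cocycle T (mem_Om hy.le (r.zst_le v hy.le)) s
    rw [r.lin_zst, ContinuousLinearEquiv.symm_symm, r.al_zst] at h1
    exact h1

theorem BC_N {v : X} {p : E2} {R : E2 ≃L[ℝ] E2} {S : Fm E2 ≃L[ℝ] Fm E2} {v' : X}
    (h : r.BC v p R S v') : ∃ e : E2 → Fm E2 →L[ℝ] ℝ,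
    ContDiffOn ℝ ∞ e {x | x ∈ ball (0 : E2) 1 ∧ p + R.symm x ∈ ball (0 : E2) 1} ∧
    (∀ k, ∀ x ∈ ball (0 : E2) 1, p + R.symm x ∈ ball (0 : E2) 1 →
      ‖iteratedFDeriv ℝ k e x‖ ≤ r.Mb T k) ∧
    ∀ x ∈ ball (0 : E2) 1, p + R.symm x ∈ ball (0 : E2) 1 → ∀ s,
      a.Nf T v' x (S s) = a.Nf T v (p + R.symm x) s + e x (S s) := by
  have hS := h.2.2.2.2.2
  subst hS
  have key : ∀ x ∈ ball (0 : E2) 1, p + R.symm x ∈ ball (0 : E2) 1 →
      ‖x‖ ≤ 1 ∧ ‖a.al (zbc h) x‖ ≤ 1 := by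
    intro x hx hx'
    rw [mem_ball, dist_zero_right] at hx hx'
    rw [al_zbc]
    exact ⟨hx.le, hx'.le⟩
  refine ⟨a.Ef T (zbc h), Ef_contDiffOn T fun y hy => ?_, fun k y hy hy' => ?_,
    fun y hy hy' s => ?_⟩
  · have := key y hy.1 hy.2
    exact mem_Om this.1 this.2
  · have := key y hy hy'
    exact r.Mb_spec T (BP_zbc h) this.1 this.2
  · have := key y hy hy'
    have h1 := a.Nf_cocycle T (mem_Om this.1 this.2) s
    rw [lin_zbc, ContinuousLinearEquiv.symm_symm, al_zbc] at h1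
    exact h1

/-- the constant of the changes of base point -/
def cb : ℝ := (a.lin_bound r.T0).choose

theorem cb_one : 1 ≤ r.cb := (a.lin_bound r.T0).choose_spec.1

theorem cb_spec {z : Pr L} (hz : a.BP r.T0 z) :
    (∀ w, ‖a.lin z w‖ ≤ r.cb * ‖w‖) ∧ ∀ w, ‖(a.lin z).symm w‖ ≤ r.cb * ‖w‖ :=
  (a.lin_bound r.T0).choose_spec.2 z hz

theorem BC_R {v : X} {p : E2} {R : E2 ≃L[ℝ] E2} {S : Fm E2 ≃L[ℝ] Fm E2} {v' : X}
    (h : r.BC v p R S v') : (∀ x, ‖R x‖ ≤ r.cb * ‖x‖) ∧ ∀ x, ‖R.symm x‖ ≤ r.cb * ‖x‖ := by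
  have h1 := r.cb_spec (BP_zbc h)
  rw [lin_zbc h] at h1
  exact ⟨h1.2, h1.1⟩

theorem BC_exf (v : X) {p : E2} (hp : p ∈ ball (0 : E2) 1) : ∃ R S v', r.BC v p R S v' := by
  obtain ⟨v', h1, h2, h3⟩ := L.exists_frame (L.em v) (a.pt v p) (a.pt_ne v p).symm (L.lv v)
  obtain ⟨R, S, h⟩ := r.BC_ex v hp h1 (by rw [h3, sub_self, abs_zero]; exact r.T0_pos.le) h2
  exact ⟨R, S, v', h⟩

/-- the density of the images of an open piece of a leaf -/
def Dense1 : Prop := ∀ (v : X) (O : Set E2), IsOpen O → O ⊆ ball 0 1 → O.Nonempty → ∀ w : X,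
  ∃ (p : ℕ → E2) (u : ℕ → X) (n : ℕ → ℕ) (w' : ℕ → X), (∀ i, p i ∈ O) ∧
    (∀ i, L.em (u i) = L.em v ∧ |L.lv (u i) - L.lv v| ≤ r.T0 ∧ L.ep (u i) = a.pt v (p i)) ∧
    (∀ i, w' i = r.psi^[n i] (u i)) ∧ Tendsto n atTop atTop ∧
    TendstoUniformlyOn (fun i => a.Nf T (w' i)) (a.Nf T w) atTop (ball 0 1)

theorem dense1 : r.Dense1 T := by
  intro v O hO hO1 hOn w
  have hOs : O ⊆ ball (0 : E2) 2 := hO1.trans (ball_subset_ball (by norm_num))
  -- the open set of the disc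
  set V : Set E2 := ball (0 : E2) 3 ∩ (fun u => a.ac v (L.e v u)) ⁻¹' O with hV
  have hc : ContinuousOn (fun u => a.ac v (L.e v u)) (ball (0 : E2) 3) := by
    have h1 : ContinuousOn (fun u : E2 => ((v, L.e v u) : X × B)) (ball (0 : E2) 3) := by
      refine continuousOn_const.prodMk ?_
      exact L.e_cont.comp (f := fun u : E2 => ((v, u) : X × E2))
        (continuousOn_const.prodMk continuousOn_id) fun u hu => ⟨mem_univ _, ball_sub hu⟩
    exact a.ac_cont.comp h1 fun u hu => L.e_ne v u (ball_sub hu)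
  have hVo : IsOpen V := hc.isOpen_inter_preimage isOpen_ball hO
  have hVn : V.Nonempty := by
    obtain ⟨p, hp⟩ := hOn
    refine ⟨a.chi v p, a.chi_mem v p (hOs hp), ?_⟩
    show a.ac v (L.e v (a.chi v p)) ∈ O
    rw [a.e_chi v p (hOs hp), a.ac_pt]
    exact hp
  have hex := fun i : ℕ => L.dense_leaf v V hVo inter_subset_left hVn
    (L.lv v + (i : ℝ) * r.T0) (ball w (1 / ((i : ℝ) + 1))) isOpen_ball
    ⟨w, mem_ball_self (by positivity)⟩
  choose g y hy1 hy2 hy3 hy4 using hex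
  have hlv : ∀ i : ℕ, L.lv v ≤ L.lv (y i) := by
    intro i
    have h1 := hy3 i
    have h2 : (0 : ℝ) ≤ (i : ℝ) * r.T0 := mul_nonneg (Nat.cast_nonneg i) r.T0_pos.le
    linarith
  choose n u hn1 hn2 hn3 hn4 hn5 using fun i => r.exists_back' (L.lv v) (y i) (hlv i)
  have hn6 : ∀ i, i ≤ n i + 1 := by
    intro i
    have h1 := hy3 i
    have h2 := hn5 i
    have h3 : (i : ℝ) * r.T0 ≤ ((n i : ℝ) + 1) * r.T0 := by linarith
    have h4 := le_of_mul_le_mul_right h3 r.T0_pos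
    exact_mod_cast h4
  have hp : ∀ i, a.ac v (L.ep (y i)) ∈ O := by
    intro i
    obtain ⟨u, hu, hu2⟩ := hy2 i
    rw [← hu2]
    exact hu.2
  have hne : ∀ i, L.ep (y i) ≠ L.em v := by
    intro i
    rw [← hy1 i]
    exact (L.em_ne_ep (y i)).symm
  refine ⟨fun i => a.ac v (L.ep (y i)), u, n, y, hp,
    fun i => ⟨?_, hn4 i, ?_⟩, fun i => (hn1 i).symm, ?_, ?_⟩
  · rw [hn2, hy1]
  · rw [hn3, a.pt_ac v _ (hne i)]
  · have h1 : Tendsto (fun i => n i + 1) atTop atTop := tendsto_atTop_mono hn6 tendsto_id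
    refine tendsto_atTop.2 fun m => ?_
    filter_upwards [tendsto_atTop.1 h1 (m + 1)] with i hi
    exact Nat.le_of_succ_le_succ hi
  · refine a.Nf_unif_smul T (g := g) ?_
    rw [tendsto_iff_dist_tendsto_zero]
    refine squeeze_zero (fun i => dist_nonneg) (fun i => ?_) tendsto_one_div_add_atTop_nhds_zero_nat
    exact (mem_ball.1 (hy4 i)).le

end RateV

open RateV in
/-- **the zoom data of the tensor** -/
def zdv {L : Leaf Γ X B} {a : AffIn L} (r : RateV a) (T : Tens L) : ZDk 4 E2 (Fm E2) X where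
  k0_pos := by norm_num
  N := a.Nf T
  K := (a.Nf_bound T).choose
  bd := (a.Nf_bound T).choose_spec
  cont v := by
    have h1 := (a.Nf_cont T).comp (f := fun u : E2 => ((v, u) : X × E2)) (s := ball (0 : E2) 1)
      (continuousOn_const.prodMk continuousOn_id)
      fun u hu => ⟨mem_univ _, ball_subset_ball (by norm_num) hu⟩
    exact h1
  lam := Real.exp (-(r.ra * r.S0))
  lam0 := Real.exp_pos _
  lam1 := by
    rw [Real.exp_lt_one_iff]
    have := mul_pos r.ra_pos r.S0_pos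
    linarith
  Lam := Real.exp (r.rb * r.S0) ^ 2
  Lam1 := by
    have h1 : 0 ≤ r.rb * r.S0 := mul_nonneg (r.ra_pos.le.trans r.ra_le) r.S0_pos.le
    exact one_le_pow₀ (Real.one_le_exp h1)
  gap := by
    rw [← Real.exp_nat_mul, ← Real.exp_nat_mul, ← Real.exp_add, Real.exp_lt_one_iff]
    have h1 := mul_pos (sub_pos.2 r.pinch) r.S0_pos
    push_cast
    linarith
  mu := Real.exp (r.rb * r.S0)
  mu1 := by
    have h1 : 0 ≤ r.rb * r.S0 := mul_nonneg (r.ra_pos.le.trans r.ra_le) r.S0_pos.le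
    exact Real.one_le_exp h1
  M := r.Mb T
  St := r.St
  St_A := by
    rintro v A S v' ⟨-, rfl, -⟩ x
    exact r.P_symm v x
  St_A' := by
    rintro v A S v' ⟨-, rfl, -⟩ x
    exact r.hi v x
  St_L := by
    rintro v A S v' ⟨-, rfl, rfl⟩ s
    exact act_symm_bound (Real.exp_pos _).le (r.hi v) s
  St_L' := by
    rintro v A S v' ⟨-, rfl, rfl⟩ s
    exact act_bound (Real.exp_pos _).le (r.P_symm v) s
  St_N := fun h => r.St_N T h
  St_next v := ⟨r.P v, act (r.P v), r.psi v, rfl, rfl, rfl⟩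
  St_prev v' := by
    obtain ⟨v, hv⟩ := r.th_ex v'
    exact ⟨v, r.P v, act (r.P v), hv.symm, rfl, rfl⟩
  BC := r.BC
  Kb := r.cb ^ 2
  Kb1 := one_le_pow₀ r.cb_one
  BC_p h := h.2.2.1
  BC_R h := by
    have h1 := r.BC_R h
    have h2 : r.cb ≤ r.cb ^ 2 := by
      have := r.cb_one
      nlinarith
    exact ⟨fun x => (h1.1 x).trans (mul_le_mul_of_nonneg_right h2 (norm_nonneg _)),
      fun x => (h1.2 x).trans (mul_le_mul_of_nonneg_right h2 (norm_nonneg _))⟩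
  BC_S h := by
    have h1 := r.BC_R h
    have h0 : 0 ≤ r.cb := zero_le_one.trans r.cb_one
    rw [h.2.2.2.2.2]
    exact ⟨act_bound h0 h1.2, act_symm_bound h0 h1.1⟩
  BC_N := fun h => r.BC_N T h
  BC_ex v p hp := r.BC_exf v hp
  cpt := a.cpt T
  dense v O hO hO1 hOn w := by
    obtain ⟨p, u, n, w', h1, h2, h3, h4, h5⟩ := r.dense1 T v O hO hO1 hOn w
    choose R S hRS using fun i => r.BC_ex v (hO1 (h1 i)) (h2 i).1 (h2 i).2.1 (h2 i).2.2
    choose A Sc hch using fun i => r.chain (n i) (u i)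
    refine ⟨p, R, S, u, n, A, Sc, w', h1, hRS, fun i => ?_, h4, h5⟩
    rw [h3 i]
    exact hch i

section rates

variable {L : Leaf Γ X B} {a : AffIn L} (r : RateV a) (T : Tens L)

theorem zdv_lam : (zdv r T).lam = Real.exp (-(r.ra * r.S0)) := rfl

theorem zdv_mu : (zdv r T).mu = Real.exp (r.rb * r.S0) := rfl

theorem zdv_Lam : (zdv r T).Lam = Real.exp (r.rb * r.S0) ^ 2 := rfl

/-- `b < 2 a` -/
theorem zdv_h2 : (zdv r T).lam ^ 2 * (zdv r T).mu < 1 := by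
  rw [zdv_lam, zdv_mu, ← Real.exp_nat_mul, ← Real.exp_add, Real.exp_lt_one_iff]
  have h1 := mul_pos (sub_pos.2 r.pinch) r.S0_pos
  push_cast
  linarith

/-- `2 b < 4 a` -/
theorem zdv_h4 : (zdv r T).lam ^ 4 * (zdv r T).Lam < 1 := (zdv r T).gap

/-- `3 b < 6 a` -/
theorem zdv_h6 : (zdv r T).lam ^ 6 * ((zdv r T).Lam * (zdv r T).mu) < 1 := by
  rw [zdv_lam, zdv_mu, zdv_Lam, ← Real.exp_nat_mul, ← Real.exp_nat_mul, ← Real.exp_add,
    ← Real.exp_add, Real.exp_lt_one_iff]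
  have h1 := mul_pos (sub_pos.2 r.pinch) r.S0_pos
  push_cast
  linarith

end rates

end Vale.Agent.P207.N4.H751
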