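import Vale.Agent.P207.N4.Dim
import Vale.Agent.P207.N4.H751.ZV3
import Vale.Agent.P207.H751.Rep
import Vale.Agent.P207.H734.TyC
import Vale.Agent.P207.H387.X1

/-!
# P207, THEOREM P: the actions of the zoom data `zdv` are the representation on forms
-/

open Set Filter Topology Metric
open scoped ContDiff

noncomputable section

namespace Vale.Agent.P207.N4.H751

open Vale.Agent.P207.N3 Vale.Agent.P207.N3.Ten Vale.Agent.P207.N4.Ten Vale.Agent.P207.H751
open Vale.Agent.P207.H686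

variable [Dim]

variable {Γ X B : Type} [Group Γ] [MetricSpace X] [ProperSpace X] [MulAction Γ X]
  [IsIsometricSMul Γ X] [TopologicalSpace B] [CompactSpace B] [T2Space B] [MulAction Γ B]
  [ContinuousConstSMul Γ B] {L : Leaf Γ X B} {a : AffIn L}

theorem hasRepV (r : RateV a) (T : Tens L) : H734.HasRep (zdv r T) (prF E2) where
  st := by
    rintro v A S v' ⟨-, rfl, rfl⟩ s
    rfl
  bc := by
    intro v p R S v' h s
    have h1 : S = act R := h.2.2.2.2.2
    rw [h1]
    rfl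

/-- the derived action and the steps -/
theorem zdv_hrho (r : RateV a) (T : Tens L) {v : X} {A : E2 ≃L[ℝ] E2} {S : Fm E2 ≃L[ℝ] Fm E2}
    {v' : X} (h : (zdv r T).St v A S v') (Y : E2 →L[ℝ] E2) (s : Fm E2) :
    S (dF E2 Y s) = dF E2 (H106.Aff.cj A Y) (S s) := by
  have h1 : S = act A := by
    rcases h with ⟨-, rfl, rfl⟩
    rfl
  rw [h1]
  exact act_dF A Y s

theorem rch_chV {D : ZDk 4 E2 (Fm E2) X} {v u w : X} {A0 A : E2 ≃L[ℝ] E2}
    {S : Fm E2 ≃L[ℝ] Fm E2} {n : ℕ} (h0 : H734.Rch D v A0 u) (h : Ch D.St u n A S w) :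
    H734.Rch D v (A0.trans A) w := by
  induction h with
  | zero =>
    have e : A0.trans (ContinuousLinearEquiv.refl ℝ E2) = A0 := ContinuousLinearEquiv.ext rfl
    rw [e]
    exact h0
  | @succ n A S w A' S' w' _ h2 ih =>
    have e : A0.trans (A.trans A') = (A0.trans A).trans A' := ContinuousLinearEquiv.ext rfl
    rw [e]
    exact H734.Rch.st ih h2

/-- **the chains of a frame with dense forward orbit become dense** (steps of variable time) -/
theorem chainsV {v0 : X} (h : N4.H387.DenseF L v0) (r : RateV a) (T : Tens L) (w : X) :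
    ∃ (R : ℕ → E2 ≃L[ℝ] E2) (S : ℕ → Fm E2 ≃L[ℝ] Fm E2) (u : ℕ → X) (n : ℕ → ℕ)
      (A : ℕ → E2 ≃L[ℝ] E2) (Lc : ℕ → Fm E2 ≃L[ℝ] Fm E2) (w' : ℕ → X),
      (∀ i, (zdv r T).BC v0 0 (R i) (S i) (u i)) ∧
      (∀ i, Ch (zdv r T).St (u i) (n i) (A i) (Lc i) (w' i)) ∧ Tendsto n atTop atTop ∧
      TendstoUniformlyOn (fun i => (zdv r T).N (w' i)) ((zdv r T).N w) atTop (ball 0 1) := by
  obtain ⟨t, b, g, ht, hlim⟩ := h.seq_fwd w
  have hT := r.T0_pos
  set y : ℕ → X := fun i => if 0 ≤ t i then L.rot (b i) (L.φ (t i) v0) else v0 with hy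
  have hy1 : ∀ i, L.em (y i) = L.em v0 := by
    intro i
    rw [hy]
    simp only
    split_ifs
    · rw [L.em_rot, L.em_φ]
    · rfl
  have hy2 : ∀ i, L.ep (y i) = L.ep v0 := by
    intro i
    rw [hy]
    simp only
    split_ifs
    · rw [Vale.Agent.P207.N4.H147.ep_rot, Vale.Agent.P207.N4.H147.ep_φ]
    · rfl
  have hy3 : ∀ i, L.lv v0 ≤ L.lv (y i) := by
    intro i
    rw [hy]
    simp only
    split_ifs with h0
    · rw [L.lv_rot, L.lv_φ]
      linarith
    · exact le_rfl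
  have hy4 : ∀ i, 0 ≤ t i → L.lv (y i) = L.lv v0 + t i := by
    intro i h0
    rw [hy]
    simp only [if_pos h0]
    rw [L.lv_rot, L.lv_φ]
  choose n u hn1 hn2 hn3 hn4 hn5 using fun i => r.exists_back' (L.lv v0) (y i) (hy3 i)
  have hBC := fun i : ℕ => r.BC_ex v0 (p := 0) (by simp) (v' := u i)
    (by rw [hn2, hy1]) (hn4 i) (by rw [a.pt_zero, hn3, hy2])
  choose R S hRS using hBC
  choose A Lc hch using fun i => r.chain (n i) (u i)
  refine ⟨R, S, u, n, A, Lc, fun i => r.psi^[n i] (u i), hRS, hch, ?_, ?_⟩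
  · refine tendsto_atTop.2 fun m => ?_
    filter_upwards [ht.eventually_ge_atTop (((m : ℝ) + 1) * r.T0)] with i hi
    have h0 : 0 ≤ t i := le_trans (by positivity) hi
    have h1 := hn5 i
    rw [hy4 i h0] at h1
    have h2 : ((m : ℝ) + 1) * r.T0 ≤ ((n i : ℝ) + 1) * r.T0 := by linarith
    have h3 := le_of_mul_le_mul_right h2 hT
    have h4 : (m : ℝ) ≤ n i := by linarith
    exact_mod_cast h4
  · refine a.Nf_unif_smul T (g := g) ?_
    refine hlim.congr' ?_
    filter_upwards [ht.eventually_ge_atTop 0] with i hi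
    rw [hn1, hy]
    simp only [if_pos hi]

/-- a frame with dense forward orbit, in the words of 734 -/
theorem denseFromV (r : RateV a) (T : Tens L) {v0 : X} (h : N4.H387.DenseF L v0) :
    H734.DenseFrom (zdv r T) v0 := by
  intro w
  obtain ⟨R, S, u, n, A, Lc, w', h1, h2, -, h3⟩ := chainsV h r T w
  exact ⟨fun i => ((ContinuousLinearEquiv.refl ℝ E2).trans (R i)).trans (A i), w',
    fun i => rch_chV (H734.Rch.bc (H734.Rch.refl v0) (h1 i)) (h2 i), h3⟩

theorem exists_denseFromV (r : RateV a) (T : Tens L) :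
    ∃ v0 : X, N4.H387.DenseF L v0 ∧ H734.DenseFrom (zdv r T) v0 := by
  obtain ⟨v0, h⟩ := N4.H387.exists_dense_frame L
  exact ⟨v0, h, denseFromV r T h⟩

end Vale.Agent.P207.N4.H751
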