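import Vale.Agent.P207.N4.Dim
import Vale.Agent.P207.N4.H751.HV
import Vale.Agent.P207.N4.H751.AfZ
import Vale.Agent.P207.H106.Aff.Use1F
import Vale.Agent.P207.H686.K.Close
import Vale.Agent.P207.H80.FmRep

/-!
# P207, THEOREM P: (C1) for affine sections of the zoom data `zdv`, no hypothesis
-/

open Set Filter Topology Metric
open scoped ContDiff

noncomputable section

namespace Vale.Agent.P207.N4.H751

open Vale.Agent.P207.N3 Vale.Agent.P207.N3.Ten Vale.Agent.P207.N4.Ten Vale.Agent.P207.H751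
open Vale.Agent.P207.H686

variable [Dim]

variable {Γ X B : Type} [Group Γ] [MetricSpace X] [ProperSpace X] [MulAction Γ X]
  [IsIsometricSMul Γ X] [TopologicalSpace B] [CompactSpace B] [T2Space B] [MulAction Γ B]
  [ContinuousConstSMul Γ B] {L : Leaf Γ X B} {a : AffIn L}

/-- **(C1) for affine sections of `zdv`**, no hypothesis -/
theorem afC_zdv (r : RateV a) (T : Tens L) : ∀ i ≥ 6, H387.Q4.AfC (zdv r T) i := by
  obtain ⟨v0, -, hd⟩ := exists_denseFromV r T
  exact afC_of (zdv r T) (prF E2) (hasRepV r T) prF_pol (zdv_h6 r T) (zdv_h2 r T)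
    (fun h Y s => zdv_hrho r T h Y s) hd

end Vale.Agent.P207.N4.H751
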