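import Vale.Agent.P207.N4.Dim
import Vale.Agent.P207.N4.H751.SB1

/-!
# P207: operators as forms, norms (no picture)
-/

open Set Filter Topology Metric
open scoped ContDiff

noncomputable section

namespace Vale.Agent.P207.N4.H751

namespace Q4

open Vale.Agent.P207.N3 Vale.Agent.P207.N3.Ten Vale.Agent.P207.N4.Ten Vale.Agent.P207.H751
open Vale.Agent.P207.H686

variable [Dim]

theorem fo_norm (s : E2 →L[ℝ] E2) : ‖fo s‖ = ‖s‖ := by
  apply le_antisymm
  · refine Fm.norm_le (norm_nonneg _) fun x y => ?_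
    rw [fo_apply]
    exact (norm_inner_le_norm _ _).trans
      (mul_le_mul_of_nonneg_right (s.le_opNorm x) (norm_nonneg _))
  · refine ContinuousLinearMap.opNorm_le_bound _ (norm_nonneg _) fun x => ?_
    by_cases hx : s x = 0
    · rw [hx, norm_zero]
      positivity
    have h1 := (fo s).le x (s x)
    rw [fo_apply, real_inner_self_eq_norm_sq, Real.norm_of_nonneg (by positivity)] at h1
    have h2 : 0 < ‖s x‖ := norm_pos_iff.2 hx
    nlinarith

/-- `fo` as an isometry -/
def foI : (E2 →L[ℝ] E2) →ₗᵢ[ℝ] Fm E2 where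
  toLinearMap := (fo : (E2 →L[ℝ] E2) →L[ℝ] Fm E2)
  norm_map' := fo_norm

theorem iter_fo {σ : E2 → E2 →L[ℝ] E2} {x : E2} (h : ContDiffAt ℝ ∞ σ x) (k : ℕ) :
    ‖iteratedFDeriv ℝ k (fun y => fo (σ y)) x‖ = ‖iteratedFDeriv ℝ k σ x‖ :=
  foI.norm_iteratedFDeriv_comp_left h (by exact_mod_cast le_top)

end Q4

end Vale.Agent.P207.N4.H751
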