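import Vale.Agent.P207.N4.Dim
import Vale.Agent.P207.N4.H751.SB2

/-!
# P207, line N4: Lemma Q over the picture `Pic` (58)
-/

open Set Filter Topology Metric
open scoped ContDiff

noncomputable section

namespace Vale.Agent.P207.N4.H751

open Vale.Agent.P207.N3 Vale.Agent.P207.N3.Ten Vale.Agent.P207.N4.Ten Vale.Agent.P207.H751
open Vale.Agent.P207.H686

/-- Lemma Q at all points of the half disc -/
def LQat {E W X : Type} [NormedAddCommGroup E] [NormedSpace ℝ E] [NormedAddCommGroup W]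
    [NormedSpace ℝ W] (D : ZD E W X) : Prop :=
  ∀ e : ℝ, 0 < e → ∀ M : ℕ → ℝ, ∃ C, ∀ (v : X) (σ : E → W) (F : E → ℝ) (δ : ℝ),
    ContDiffOn ℝ ∞ σ (ball 0 1) → ContDiffOn ℝ ∞ F (ball 0 1) →
    (∀ k, ∀ x ∈ ball (0 : E) 1, ‖iteratedFDeriv ℝ k σ x‖ ≤ M k) →
    (∀ k, ∀ x ∈ ball (0 : E) 1, ‖iteratedFDeriv ℝ k F x‖ ≤ M k) → 0 < δ → δ ≤ 1 →
    (∀ x ∈ ball (0 : E) 1, |D.N v x (σ x) - F x| ≤ δ) →
    ∀ q ∈ ball (0 : E) (1 / 2), ∃ s ∈ D.Sm v, ‖σ q - s‖ ≤ C * δ ^ (1 - e)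

variable [Dim]

theorem fo_norm (s : E2 →L[ℝ] E2) : ‖fo s‖ = ‖s‖ := by
  apply le_antisymm
  · refine Fm.norm_le (norm_nonneg _) fun x y => ?_
    rw [fo_apply]
    exact (norm_inner_le_norm _ _).trans
      (mul_le_mul_of_nonneg_right (s.le_opNorm x) (norm_nonneg _))
  · refine ContinuousLinearMap.opNorm_le_bound _ (norm_nonneg _) fun x => ?_
    by_cases hx : s x = 0
    · rw [hx, norm_zero]
      positivity
    have h1 := (fo s).le x (s x)
    rw [fo_apply, real_inner_self_eq_norm_sq, Real.norm_of_nonneg (by positivity)] at h1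
    have h2 : 0 < ‖s x‖ := norm_pos_iff.2 hx
    nlinarith

/-- `fo` as an isometry -/
def foI : (E2 →L[ℝ] E2) →ₗᵢ[ℝ] Fm E2 where
  toLinearMap := (fo : (E2 →L[ℝ] E2) →L[ℝ] Fm E2)
  norm_map' := fo_norm

theorem iter_fo {σ : E2 → E2 →L[ℝ] E2} {x : E2} (h : ContDiffAt ℝ ∞ σ x) (k : ℕ) :
    ‖iteratedFDeriv ℝ k (fun y => fo (σ y)) x‖ = ‖iteratedFDeriv ℝ k σ x‖ :=
  foI.norm_iteratedFDeriv_comp_left h (by exact_mod_cast le_top)

variable {Γ X B : Type} [Group Γ] [MetricSpace X] [ProperSpace X] [MulAction Γ X]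
  [IsIsometricSMul Γ X] [TopologicalSpace B] [CompactSpace B] [T2Space B] [MulAction Γ B]
  [ContinuousConstSMul Γ B]

variable {L : Leaf Γ X B} [MeasurableSpace B] [BorelSpace B] {V : Type}
  [NormedAddCommGroup V] [NormedSpace ℝ V] [FiniteDimensional ℝ V] (P : Pic L V)

/-- **(LQ)** from Lemma Q of the zoom data -/
theorem lq_of (hR : P.RateP) (hQ : LQat (pzd P hR)) : P.LQ := by
  intro κ Mk hκ
  obtain ⟨C, hC⟩ := hQ (1 - κ) (by linarith) Mk
  refine ⟨C, fun x σ F d hd hd1 hσ hF hb hN q hq => ?_⟩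
  have h1 : ContDiffOn ℝ ∞ (fun y => fo (σ y)) (ball 0 1) :=
    (fo : (E2 →L[ℝ] E2) →L[ℝ] Fm E2).contDiff.comp_contDiffOn hσ
  have h2 := hC x (fun y => fo (σ y)) F d h1 hF (fun k y hy => ?_) (fun k y hy => (hb k y hy).2)
    hd hd1 (fun y hy => ?_) q hq
  · obtain ⟨s', hs', hle⟩ := h2
    obtain ⟨s, rfl⟩ := fo_surj s'
    refine ⟨s, (mem_Sm_iff P hR x s).2 hs', ?_⟩
    rw [sub_sub_cancel, ← map_sub, fo_norm] at hle
    exact hle
  · rw [iter_fo (hσ.contDiffAt (isOpen_ball.mem_nhds hy))]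
    exact (hb k y hy).1
  · have h3 := pr_eq P x (ball_subset_closedBall (ball_subset_ball (by norm_num) hy)) (σ y)
    have h4 := hN y hy
    rw [← h3] at h4
    exact h4

end Vale.Agent.P207.N4.H751
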