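import Vale.Agent.P207.N4.Dim
import Vale.Agent.P207.N4.H751.LQ1
import Vale.Agent.P207.H387.LemQAt

/-!
# P207, line N4: Lemma Q over the picture `Pic` (58): `P.RateP → P.LQ`
-/

open Set Filter Topology Metric
open scoped ContDiff

noncomputable section

namespace Vale.Agent.P207.N4.H751

open Vale.Agent.P207.N3 Vale.Agent.P207.N3.Ten Vale.Agent.P207.N4.Ten Vale.Agent.P207.H751
open Vale.Agent.P207.H686

/-- Lemma Q (387) at all points of the half disc -/
theorem lqat {E W X : Type} [NormedAddCommGroup E] [NormedSpace ℝ E] [FiniteDimensional ℝ E]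
    [NormedAddCommGroup W] [NormedSpace ℝ W] [FiniteDimensional ℝ W] (D : ZD E W X) : LQat D := by
  intro e he M
  obtain ⟨C, -, hC⟩ := Vale.Agent.P207.H387.lemmaQ_at D e he 1 (1 / 2) (by norm_num) le_rfl M
  exact ⟨C, hC⟩

variable [Dim]

variable {Γ X B : Type} [Group Γ] [MetricSpace X] [ProperSpace X] [MulAction Γ X]
  [IsIsometricSMul Γ X] [TopologicalSpace B] [CompactSpace B] [T2Space B] [MulAction Γ B]
  [ContinuousConstSMul Γ B]

variable {L : Leaf Γ X B} [MeasurableSpace B] [BorelSpace B] {V : Type}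
  [NormedAddCommGroup V] [NormedSpace ℝ V] [FiniteDimensional ℝ V] (P : Pic L V)

/-- **(LQ)** -/
theorem lq (hR : P.RateP) : P.LQ := lq_of P hR (lqat _)

end Vale.Agent.P207.N4.H751
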