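import Vale.Agent.P207.N4.Dim
import Vale.Agent.P207.N4.H751.ZV3
import Vale.Agent.P207.N4.H751.SB1
import Vale.Agent.P207.H686.K.SB2

/-!
# P207, THEOREM P: the S-bundle of the tensor under changes of frame
-/

open Set Filter Topology Metric
open scoped ContDiff

noncomputable section

namespace Vale.Agent.P207.N4.H751

open Vale.Agent.P207.N3 Vale.Agent.P207.N3.Ten Vale.Agent.P207.N4.Ten Vale.Agent.P207.H751
open Vale.Agent.P207.H686

variable [Dim]

variable {Γ X B : Type} [Group Γ] [MetricSpace X] [ProperSpace X] [MulAction Γ X]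
  [IsIsometricSMul Γ X] [TopologicalSpace B] [CompactSpace B] [T2Space B] [MulAction Γ B]
  [ContinuousConstSMul Γ B]

/-! ### changes of frame -/

namespace RateV

variable {L : Leaf Γ X B} {a : AffIn L} (r : RateV a) (T : Tens L)

theorem mem_Sm {v : X} {s : Fm E2} :
    s ∈ (zdv r T).Sm v ↔ ContDiffOn ℝ ∞ (fun x => a.Nf T v x s) (ball 0 1) := Iff.rfl

theorem sm_pair1 {z : Pr L} {y₀ : E2} (h1 : ‖y₀‖ < 1) (h2 : ‖a.al z y₀‖ < 1) {s : Fm E2}
    (hs : s ∈ (zdv r T).Sm z.1.1) : act (a.lin z).symm s ∈ (zdv r T).Sm z.1.2 := by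
  set O : Set E2 := ball (0 : E2) 1 ∩ (fun y => a.al z y) ⁻¹' ball (0 : E2) 1 with hO
  have hal : ContDiff ℝ ∞ fun y => a.al z y := by
    have h5 : (fun v => a.al z v) = fun v => a.al z 0 + (a.lin z : E2 →L[ℝ] E2) v :=
      funext fun v => a.al_eq z v
    rw [h5]
    exact contDiff_const.add (a.lin z : E2 →L[ℝ] E2).contDiff
  have hOo : IsOpen O := isOpen_ball.inter (isOpen_ball.preimage hal.continuous)
  have hOm : ∀ y ∈ O, ((z, y) : Pr L × E2) ∈ a.Om := by
    rintro y ⟨e1, e2⟩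
    rw [mem_ball, dist_zero_right] at e1
    rw [mem_preimage, mem_ball, dist_zero_right] at e2
    exact mem_Om e1.le e2.le
  have hne : O.Nonempty := ⟨y₀, by rwa [mem_ball, dist_zero_right],
    by rwa [mem_preimage, mem_ball, dist_zero_right]⟩
  refine (zdv r T).sm_max hOo inter_subset_left hne ?_
  have hs' : ContDiffOn ℝ ∞ (fun x => a.Nf T z.1.1 x s) (ball 0 1) := hs
  have e1 : ContDiffOn ℝ ∞ (fun y => a.Nf T z.1.1 (a.al z y) s) O :=
    hs'.comp hal.contDiffOn fun y hy => hy.2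
  have e2 : ContDiffOn ℝ ∞ (fun y => a.Ef T z y (act (a.lin z).symm s)) O :=
    (Ef_contDiffOn T hOm).clm_apply contDiffOn_const
  refine (e1.add e2).congr fun y hy => ?_
  exact a.Nf_cocycle T (hOm y hy) s

theorem lin_swap (z : Pr L) : a.lin (AffIn.sw z) = (a.lin z).symm := by
  refine ContinuousLinearEquiv.ext (funext fun w => ?_)
  have h1 := a.al_eq (AffIn.sw z) (a.al z 0 + w)
  have h2 := a.al_eq (AffIn.sw z) (a.al z 0)
  rw [a.lin_sw, h1, h2, map_add]
  abel

theorem act_symm_act (A : E2 ≃L[ℝ] E2) (s : Fm E2) : act A (act A.symm s) = s :=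
  Fm.ext fun x y => by
    rw [act_apply, act_apply, ContinuousLinearEquiv.symm_symm, A.apply_symm_apply,
      A.apply_symm_apply]

/-- **the S-bundle is invariant under the changes of frame** -/
theorem sm_pair {z : Pr L} {y₀ : E2} (h1 : ‖y₀‖ < 1) (h2 : ‖a.al z y₀‖ < 1) (s : Fm E2) :
    s ∈ (zdv r T).Sm z.1.1 ↔ act (a.lin z).symm s ∈ (zdv r T).Sm z.1.2 := by
  refine ⟨r.sm_pair1 T h1 h2, fun hs => ?_⟩
  have h3 := r.sm_pair1 T (z := AffIn.sw z) (y₀ := a.al z y₀) h2
    (by rw [a.al_sw]; exact h1) hs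
  rw [lin_swap, ContinuousLinearEquiv.symm_symm, act_symm_act] at h3
  exact h3

end RateV

end Vale.Agent.P207.N4.H751
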