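import Vale.Agent.P207.N4.Dim
import Vale.Agent.P207.N4.H862.BusSg
import Vale.Agent.P207.N4.H265.BusI

/-!
# P207, line N4: the angle at a point of a disc, seen on the disc and on the orthogonal disc

`tang`: if `z` is the frame at the point `q` of the disc of `x` with `em z = em x`, then the
gradient of the Busemann function of `ξ` on the disc of `z` is bounded by the difference of the
gradients on the disc of `x`.
-/

set_option linter.unusedSectionVars false

open Set Filter Topology Metric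
open scoped ContDiff

noncomputable section

namespace Vale.Agent.P207.N4.H751

open Vale.Agent.P207.N3

variable [Dim]
open Vale.Agent.P207.N4.H76 (pk tl e0 sg)
open Vale.Agent.P207.N4.H722
open Vale.Agent.P207.N4.H862

variable {Γ X B : Type} [Group Γ] [MetricSpace X] [ProperSpace X] [MulAction Γ X]
  [IsIsometricSMul Γ X] [TopologicalSpace B] [CompactSpace B] [T2Space B] [MulAction Γ B]
  [ContinuousConstSMul Γ B] {L : Leaf Γ X B} {V : Type} [NormedAddCommGroup V] [NormedSpace ℝ V]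
  [FiniteDimensional ℝ V] {I : GeoIn L V}

/-- the component along the geodesics is uniformly bounded -/
theorem exists_al (hX : GeoX I) : ∃ C, 0 ≤ C ∧ ∀ x, ∀ q ∈ ball (0 : E2) 3, ∀ w,
    al I x q w ^ 2 ≤ C * I.G (disc I x q) w w := by
  obtain ⟨K, hK, hcov⟩ := L.cocompact
  have hD := DiscX.of_geoX hX
  have hcomp : IsCompact ((K ×ˢ closedBall (0 : E2) 3) ×ˢ sphere (0 : V) 1) :=
    (hK.prod (isCompact_closedBall _ _)).prod (isCompact_sphere _ _)
  have hsub : ((K ×ˢ closedBall (0 : E2) 3) ×ˢ sphere (0 : V) 1) ⊆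
      ((univ ×ˢ ball 0 I.S.R) ×ˢ univ : Set ((X × E2) × V)) := fun p hp =>
    ⟨⟨mem_univ _, I.S.mem_R hp.1.2⟩, mem_univ _⟩
  have h1 : ContinuousOn (fun p : (X × E2) × V => disc I p.1.1 p.1.2)
      ((univ ×ˢ ball 0 I.S.R) ×ˢ univ) :=
    (disc_cont I).comp (f := fun p : (X × E2) × V => p.1) continuous_fst.continuousOn
      fun p hp => hp.1
  have h5 : ContinuousOn (fun p : (X × E2) × V => I.G (disc I p.1.1 p.1.2))
      ((univ ×ˢ ball 0 I.S.R) ×ˢ univ) := I.G_smooth.continuous.comp_continuousOn h1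
  have hG : ContinuousOn (fun p : (X × E2) × V => I.G (disc I p.1.1 p.1.2) p.2 p.2)
      ((univ ×ˢ ball 0 I.S.R) ×ˢ univ) :=
    (h5.clm_apply continuous_snd.continuousOn).clm_apply continuous_snd.continuousOn
  have ha : ContinuousOn (fun p : (X × E2) × V => al I p.1.1 p.1.2)
      ((univ ×ˢ ball 0 I.S.R) ×ˢ univ) :=
    (al_cont I).comp (f := fun p : (X × E2) × V => p.1) continuous_fst.continuousOn
      fun p hp => hp.1
  have hav : ContinuousOn (fun p : (X × E2) × V => al I p.1.1 p.1.2 p.2)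
      ((univ ×ˢ ball 0 I.S.R) ×ˢ univ) := ha.clm_apply continuous_snd.continuousOn
  obtain ⟨c, hc, hc'⟩ := hcomp.exists_forall_le' (hG.mono hsub) (a := 0) (by
    rintro ⟨⟨x, q⟩, w⟩ ⟨⟨-, hq⟩, hw⟩
    refine I.G_pos _ _ fun h0 => ?_
    have h1 : ‖w‖ = 1 := by simpa using hw
    have h0' : w = 0 := h0
    rw [h0', norm_zero] at h1
    exact zero_ne_one h1)
  obtain ⟨M, hM⟩ := hcomp.exists_bound_of_continuousOn (hav.mono hsub)
  refine ⟨M ^ 2 / c, by positivity, fun x q hq w => ?_⟩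
  -- the compact set of frames
  have keyK : ∀ x ∈ K, ∀ w : V, al I x q w ^ 2 ≤ M ^ 2 / c * I.G (disc I x q) w w := by
    intro x hx w
    rcases eq_or_ne w 0 with rfl | hw
    · simp
    have hn : ‖w‖ ≠ 0 := norm_ne_zero_iff.2 hw
    have hmem : ((x, q), ‖w‖⁻¹ • w) ∈ ((K ×ˢ closedBall (0 : E2) 3) ×ˢ sphere (0 : V) 1) := by
      refine ⟨⟨hx, ball_subset_closedBall hq⟩, ?_⟩
      rw [mem_sphere, dist_zero_right, norm_smul, norm_inv, norm_norm, inv_mul_cancel₀ hn]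
    have e1 := hc' _ hmem
    have e2 := hM _ hmem
    simp only at e1 e2
    rw [G_sq] at e1
    rw [map_smul, smul_eq_mul, Real.norm_eq_abs, abs_mul, abs_inv, abs_norm] at e2
    have hn' : 0 < ‖w‖ := norm_pos_iff.2 hw
    have e3 : |al I x q w| ≤ M * ‖w‖ := by
      rw [inv_mul_le_iff₀ hn'] at e2
      linarith
    have e4 : c * ‖w‖ ^ 2 ≤ I.G (disc I x q) w w := by
      calc c * ‖w‖ ^ 2 ≤ (‖w‖⁻¹ * ‖w‖⁻¹ * I.G (disc I x q) w w) * ‖w‖ ^ 2 :=
            mul_le_mul_of_nonneg_right e1 (by positivity)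
        _ = I.G (disc I x q) w w := by field_simp
    have e5 : al I x q w ^ 2 ≤ (M * ‖w‖) ^ 2 := by
      rw [← sq_abs (al I x q w)]
      exact pow_le_pow_left₀ (abs_nonneg _) e3 2
    calc al I x q w ^ 2 ≤ (M * ‖w‖) ^ 2 := e5
      _ = M ^ 2 / c * (c * ‖w‖ ^ 2) := by field_simp
      _ ≤ M ^ 2 / c * I.G (disc I x q) w w := mul_le_mul_of_nonneg_left e4 (by positivity)
  obtain ⟨g, hg⟩ := hcov x
  have h6 := keyK (g • x) hg (fderiv ℝ (I.act g) (disc I x q) w)
  rw [al_smul hD g x hq, disc_smul hD g x hq, hX.act_iso] at h6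
  exact h6

/-- algebra: two unit vectors on the same side of the disc -/
theorem tang_alg (x : X) {q : E2} (hq : q ∈ ball (0 : E2) 3) {c C : ℝ} (hc : 0 < c)
    (hC : 0 ≤ C)
    (hgm : ∀ a, c * (‖a‖ * ‖a‖) ≤ I.G (disc I x q) (tg I x q a) (tg I x q a))
    (hal : ∀ w, al I x q w ^ 2 ≤ C * I.G (disc I x q) w w) {z : X} (hz : I.S.ft z = disc I x q)
    {v v₀ : V} (hv : I.G (disc I x q) v v = 1) (hv₀ : I.G (disc I x q) v₀ v₀ = 1)
    (hav : 0 < al I x q v) (hav₀ : al I x q v₀ = 1) {π : E2}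
    (hπ : ∀ a, I.G (disc I x q) (v - v₀) (tg I x q a) = inner ℝ π a) :
    ‖(I.EE z).symm (v - v₀)‖ ≤ (1 + 2 * Real.sqrt C) / Real.sqrt c * ‖π‖ := by
  have hR := mem3 I hq
  set d := disc I x q with hd
  set s := (I.EE z).symm with hs
  have hG : ∀ w w', I.G d w w' = inner ℝ (s w) (s w') := by
    intro w w'
    have e1 : w = I.E z (s w) := by
      rw [← GeoIn.EE_apply, hs, ContinuousLinearEquiv.apply_symm_apply]
    have e2 : w' = I.E z (s w') := by
      rw [← GeoIn.EE_apply, hs, ContinuousLinearEquiv.apply_symm_apply]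
    conv_lhs => rw [e1, e2, ← hz]
    exact I.G_E z _ _
  have hGn : ∀ w, I.G d w w = ‖s w‖ ^ 2 := fun w => by rw [hG, real_inner_self_eq_norm_sq]
  set w := v - v₀ with hw
  set u := v + v₀ with hu
  have hwu : I.G d w u = 0 := by
    have e3 := I.G_symm d v v₀
    rw [hw, hu, map_sub, sub_apply, map_add, map_add]
    linarith
  have hau : al I x q u = al I x q v + 1 := by rw [hu, map_add, hav₀]
  have hau0 : 0 < al I x q u := by rw [hau]; linarith
  set t : ℝ := al I x q w / al I x q u with ht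
  obtain ⟨a, ha⟩ := exists_tg I x hR (w := w - t • u) (by
    rw [map_sub, map_smul, smul_eq_mul, ht, div_mul_cancel₀ _ hau0.ne', sub_self])
  have hC' := Real.sqrt_nonneg C
  have hc' : 0 < Real.sqrt c := Real.sqrt_pos.2 hc
  have hnv : ‖s v‖ = 1 := by
    have := hGn v
    rw [hv] at this
    nlinarith [norm_nonneg (s v)]
  have hnv₀ : ‖s v₀‖ = 1 := by
    have := hGn v₀
    rw [hv₀] at this
    nlinarith [norm_nonneg (s v₀)]
  -- the size of `t`
  have h1 : |al I x q w| ≤ Real.sqrt C * ‖s w‖ := by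
    have e1 := Real.abs_le_sqrt (hal w)
    rwa [hGn, Real.sqrt_mul hC, Real.sqrt_sq (norm_nonneg _)] at e1
  have h2 : |t| ≤ Real.sqrt C * ‖s w‖ := by
    rw [ht, abs_div, abs_of_pos hau0]
    refine (div_le_self (abs_nonneg _) ?_).trans h1
    rw [hau]
    linarith
  have h3 : ‖s u‖ ≤ 2 := by
    rw [hu, map_add]
    refine (norm_add_le _ _).trans ?_
    rw [hnv, hnv₀]
    norm_num
  have h4 : ‖s (tg I x q a)‖ ≤ (1 + 2 * Real.sqrt C) * ‖s w‖ := by
    rw [ha, map_sub, map_smul]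
    calc ‖s w - t • s u‖ ≤ ‖s w‖ + ‖t • s u‖ := norm_sub_le _ _
      _ = ‖s w‖ + |t| * ‖s u‖ := by rw [norm_smul, Real.norm_eq_abs]
      _ ≤ ‖s w‖ + Real.sqrt C * ‖s w‖ * 2 := by
          have := mul_le_mul h2 h3 (norm_nonneg _) (by positivity)
          linarith
      _ = (1 + 2 * Real.sqrt C) * ‖s w‖ := by ring
  have h5 : Real.sqrt c * ‖a‖ ≤ (1 + 2 * Real.sqrt C) * ‖s w‖ := by
    refine le_trans ?_ h4
    have e1 := hgm a
    rw [hGn] at e1
    have e2 : (Real.sqrt c * ‖a‖) ^ 2 ≤ ‖s (tg I x q a)‖ ^ 2 := by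
      rw [mul_pow, Real.sq_sqrt hc.le]
      calc c * ‖a‖ ^ 2 = c * (‖a‖ * ‖a‖) := by ring
        _ ≤ _ := e1
    exact (sq_le_sq₀ (by positivity) (norm_nonneg _)).1 e2
  have h6 : ‖s w‖ ^ 2 ≤ ‖π‖ * ‖a‖ := by
    have e1 : w = t • u + tg I x q a := by rw [ha]; abel
    have e2 : I.G d w w = inner ℝ π a := by
      have e3 : I.G d w w = I.G d w (t • u + tg I x q a) := by rw [← e1]
      rw [e3, map_add, map_smul, hwu, smul_zero, zero_add, hπ]
    rw [← hGn, e2]
    exact real_inner_le_norm π a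
  rcases eq_or_ne (‖s w‖) 0 with h0 | h0
  · rw [h0]
    positivity
  have hpos : 0 < ‖s w‖ := lt_of_le_of_ne (norm_nonneg _) (Ne.symm h0)
  have h7 : ‖a‖ ≤ (1 + 2 * Real.sqrt C) * ‖s w‖ / Real.sqrt c := by
    rw [le_div_iff₀ hc', mul_comm]
    exact h5
  have h8 : ‖s w‖ * ‖s w‖ ≤ (1 + 2 * Real.sqrt C) / Real.sqrt c * ‖π‖ * ‖s w‖ := by
    calc ‖s w‖ * ‖s w‖ = ‖s w‖ ^ 2 := by ring
      _ ≤ ‖π‖ * ‖a‖ := h6
      _ ≤ ‖π‖ * ((1 + 2 * Real.sqrt C) * ‖s w‖ / Real.sqrt c) :=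
          mul_le_mul_of_nonneg_left h7 (norm_nonneg _)
      _ = _ := by ring
  exact le_of_mul_le_mul_right h8 hpos

/-- **the angle at a point of the disc** -/
theorem tang (hX : GeoX I) : ∃ C, 0 ≤ C ∧ ∀ x ξ, ∀ q ∈ ball (0 : E2) 3, 0 < nu I x ξ q →
    ∀ z, L.em z = L.em x → I.S.ft z = disc I x q →
    ‖gradient (be I z ξ) 0‖ ≤
      C * ‖gradient (be I x ξ) q - gradient (be I x (L.em x)) q‖ := by
  obtain ⟨c, hc, hgm⟩ := exists_gm hX
  obtain ⟨C, hC, hal⟩ := exists_al hX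
  refine ⟨I.r₀ * ((1 + 2 * Real.sqrt C) / Real.sqrt c), by
    have := I.r₀_pos
    positivity, fun x ξ q hq hnu z hz1 hz2 => ?_⟩
  have hR := mem3 I hq
  have h1 := tang_alg x hq hc hC (hgm x q hq) (hal x q hq) hz2 (v := I.vel ξ (disc I x q))
    (v₀ := I.vel (L.em x) (disc I x q)) (I.G_vel H459.invThm _ _) (I.G_vel H459.invThm _ _)
    ((nu_pos_iff I x ξ hR).1 hnu) (al_vel I x hR)
    (π := gradient (be I x ξ) q - gradient (be I x (L.em x)) q) (fun a => by
      rw [map_sub, sub_apply, inner_sub_left, gradient_be I x ξ hR, gradient_be I x _ hR])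
  set w := I.vel ξ (disc I x q) - I.vel (L.em x) (disc I x q) with hw
  have h2 : ∀ a : E2, |inner ℝ (gradient (be I z ξ) 0) a| ≤
      ‖(I.EE z).symm w‖ * (I.r₀ * ‖a‖) := by
    intro a
    have e0 : ∀ ζ, inner ℝ (gradient (be I z ζ) 0) a =
        I.G (I.S.ft z) (I.vel ζ (I.S.ft z)) (I.E z (pk 0 (I.r₀ • a))) := by
      intro ζ
      rw [gradient_be I z ζ (zero_mem I), disc_zero]
      congr 1
      exact DA_zero I z 0 a
    have e1 : inner ℝ (gradient (be I z (L.em z)) 0) a = (0 : ℝ) := by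
      have e11 : gradient (be I z (L.em z)) 0 = 0 := H265.be_crit I z
      rw [e11, inner_zero_left]
    have e2 : inner ℝ (gradient (be I z ξ) 0) a =
        I.G (I.S.ft z) w (I.E z (pk 0 (I.r₀ • a))) := by
      rw [hw, map_sub, sub_apply, ← hz2, ← e0, ← hz1, ← e0, e1, sub_zero]
    have e3 : w = I.E z ((I.EE z).symm w) := by
      rw [← GeoIn.EE_apply, ContinuousLinearEquiv.apply_symm_apply]
    rw [e2]
    conv_lhs => rw [e3]
    rw [I.G_E]
    refine (abs_real_inner_le_norm _ _).trans ?_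
    refine mul_le_mul_of_nonneg_left (le_of_eq ?_) (norm_nonneg _)
    rw [H76.norm_pk_zero_left, norm_smul, Real.norm_of_nonneg I.r₀_pos.le]
  set g := gradient (be I z ξ) 0 with hg
  have h3 : ‖g‖ ≤ ‖(I.EE z).symm w‖ * I.r₀ := by
    rcases eq_or_ne (‖g‖) 0 with h0 | h0
    · rw [h0]
      have := I.r₀_pos
      positivity
    have hpos : 0 < ‖g‖ := lt_of_le_of_ne (norm_nonneg _) (Ne.symm h0)
    have e1 := h2 g
    rw [real_inner_self_eq_norm_sq, abs_of_nonneg (by positivity)] at e1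
    have e2 : ‖g‖ * ‖g‖ ≤ ‖(I.EE z).symm w‖ * I.r₀ * ‖g‖ := by
      calc ‖g‖ * ‖g‖ = ‖g‖ ^ 2 := by ring
        _ ≤ _ := e1
        _ = _ := by ring
    exact le_of_mul_le_mul_right e2 hpos
  calc ‖g‖ ≤ ‖(I.EE z).symm w‖ * I.r₀ := h3
    _ ≤ ((1 + 2 * Real.sqrt C) / Real.sqrt c *
        ‖gradient (be I x ξ) q - gradient (be I x (L.em x)) q‖) * I.r₀ :=
      mul_le_mul_of_nonneg_right h1 I.r₀_pos.le
    _ = _ := by ring

end Vale.Agent.P207.N4.H751
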